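import Vale.Agent.P329.Elem

/-! Finite groups that are abelian-by-(elementary abelian). -/

namespace Vale.Agent.P329

variable {α : Type}

theorem zpow_eq_of_cast {K : Type*} [Group K] {N : ℕ} (g : K) (hg : g ^ N = 1) {m n : ℤ}
    (h : (m : ZMod N) = n) : g ^ m = g ^ n := by
  rw [ZMod.intCast_eq_intCast_iff_dvd_sub] at h
  obtain ⟨q, hq⟩ := h
  have : n = m + N * q := by linarith
  rw [this, zpow_add, zpow_mul, zpow_natCast, hg, one_zpow, mul_one]

theorem cast_of_dvd {M N : ℕ} (h : N ∣ M) {m n : ℤ} (e : (m : ZMod M) = n) :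
    (m : ZMod N) = n := by
  rw [ZMod.intCast_eq_intCast_iff_dvd_sub] at e ⊢
  exact (Int.natCast_dvd_natCast.mpr h).trans e

theorem rec_of_abelian_ker (p : ℕ) [Fact p.Prime] {G V : Type} [Group G] [Finite G]
    [AddCommGroup V] [Module (ZMod p) V] [Finite V] (π : G →* Multiplicative V)
    (hπ : Function.Surjective π) (hker : ∀ x y, π x = 1 → π y = 1 → x * y = y * x)
    [Finite α] (σ : α → G) (D : G → Prop) : Rec 1 (fun w : List α => D (w.map σ).prod) := by
  classical
  haveI := Fintype.ofFinite α
  haveI := Fintype.ofFinite V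
  let T : α → V := fun a => (π (σ a)).toAdd
  have hT : ∀ w : List α, π (w.map σ).prod = Multiplicative.ofAdd (w.map T).sum := by
    intro w
    induction w with
    | nil => simp
    | cons a w ih =>
      rw [List.map_cons, List.prod_cons, map_mul, ih, List.map_cons, List.sum_cons, ofAdd_add]
      rfl
  have hs : ∀ v : V, ∃ g : G, π g = Multiplicative.ofAdd v := fun v => hπ _
  choose s hs using hs
  let K : Subgroup G := π.ker
  letI : CommGroup K :=
    { (inferInstance : Group K) with
      mul_comm := by
        rintro ⟨x, hx⟩ ⟨y, hy⟩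
        exact Subtype.ext (hker x y hx hy) }
  have hF : ∀ (b : α) (v : V), s v * σ b * (s (v + T b))⁻¹ ∈ K := by
    intro b v
    rw [MonoidHom.mem_ker, map_mul, map_mul, map_inv, hs, hs, ofAdd_add]
    show _ * Multiplicative.ofAdd (T b) * _ = _
    rw [mul_inv_cancel]
  let F : α → V → K := fun b v => ⟨_, hF b v⟩
  have hβ : ∀ w : List α, s 0 * (w.map σ).prod * (s (w.map T).sum)⁻¹ ∈ K := by
    intro w
    rw [MonoidHom.mem_ker, map_mul, map_mul, map_inv, hs, hs, hT, ofAdd_zero, one_mul,
      mul_inv_cancel]
  let β : List α → K := fun w => ⟨_, hβ w⟩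
  have hstep : ∀ w b, β (w ++ [b]) = β w * F b (w.map T).sum := by
    intro w b
    apply Subtype.ext
    show s 0 * ((w ++ [b]).map σ).prod * (s ((w ++ [b]).map T).sum)⁻¹ =
      s 0 * (w.map σ).prod * (s (w.map T).sum)⁻¹ *
        (s (w.map T).sum * σ b * (s ((w.map T).sum + T b))⁻¹)
    rw [List.map_append, List.prod_append, List.map_append, List.sum_append]
    simp only [List.map_cons, List.map_nil, List.prod_cons, List.prod_nil, mul_one,
      List.sum_cons, List.sum_nil, add_zero]
    group
  have hprod : ∀ w : List α, β w =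
      ∏ b : α, ∏ v : V, F b v ^ (occ b (fun u => ind ((u.map T).sum = v)) w) := by
    intro w
    induction w using List.reverseRecOn with
    | nil =>
      simp only [occ_nil, zpow_zero, Finset.prod_const_one]
      apply Subtype.ext
      show s 0 * (List.map σ []).prod * (s (List.map T []).sum)⁻¹ = 1
      simp
    | append_singleton w b ih =>
      rw [hstep, ih]
      simp only [occ_snoc, zpow_add, Finset.prod_mul_distrib]
      congr 1
      rw [Finset.prod_eq_single b, Finset.prod_eq_single (w.map T).sum]
      · rw [if_pos rfl, ind_true rfl, zpow_one]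
      · intro v _ hv
        rw [if_pos rfl, ind_false (fun h => hv h.symm), zpow_zero]
      · simp
      · intro c _ hc
        apply Finset.prod_eq_one
        intro v _
        rw [if_neg (fun h => hc h.symm), zpow_zero]
      · simp
  let X : (α × V) ⊕ V → List α → ℤ := Sum.elim
    (fun bv => occ bv.1 (fun u => ind ((u.map T).sum = bv.2)))
    (fun v w => ind ((w.map T).sum = v))
  have hX : ∀ i, Realz (X i) := by
    rintro (⟨b, v⟩ | v)
    · exact realz_elem p T b v
    · intro M hM c
      have h1 := rec_elem_sum p T v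
      refine ((h1.and (Rec.const 1 (1 = c))).or
        (h1.not.and (Rec.const 1 (0 = c)))).congr (fun w => ?_)
      show ((ind ((w.map T).sum = v) : ℤ) : ZMod M) = c ↔ _
      by_cases h : (w.map T).sum = v
      · rw [ind_true h]
        simp [h]
      · rw [ind_false h]
        simp [h]
  have hcard : 0 < Nat.card G := Nat.card_pos
  refine Realz.factor hX (M := 2 * Nat.card G) (by omega) ?_
  intro w w' h
  have hTw : (w.map T).sum = (w'.map T).sum := by
    have h1 := h (Sum.inr (w.map T).sum)
    simp only [X, Sum.elim_inr] at h1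
    rw [ind_true trivial] at h1
    by_contra hne
    rw [ind_false (fun h => hne h.symm)] at h1
    have h2 := cast_of_dvd (N := 2) (Dvd.intro _ rfl) h1
    revert h2
    decide
  have hβw : β w = β w' := by
    rw [hprod, hprod]
    refine Finset.prod_congr rfl (fun b _ => Finset.prod_congr rfl (fun v _ => ?_))
    apply zpow_eq_of_cast (N := Nat.card G)
    · apply Subtype.ext
      rw [Subgroup.coe_pow, pow_card_eq_one']
      rfl
    · exact cast_of_dvd (Dvd.intro_left _ rfl) (h (Sum.inl (b, v)))
  have hσ : (w.map σ).prod = (w'.map σ).prod := by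
    have h1 := congrArg Subtype.val hβw
    simp only [β] at h1
    rw [hTw] at h1
    exact mul_left_cancel (mul_right_cancel h1)
  rw [hσ]
  exact id

/-- **Theorem 1**: abelian-by-(elementary abelian) groups. -/
theorem rec_of_abelian_by_elementary {G : Type} [Group G] [Finite G] (A : Subgroup G)
    (hAn : A.Normal) (hA : ∀ x ∈ A, ∀ y ∈ A, x * y = y * x) (p : ℕ) (hp : p.Prime)
    (hpow : ∀ g : G, g ^ p ∈ A) (hcomm : ∀ g h : G, g * h * g⁻¹ * h⁻¹ ∈ A)
    [Finite α] (σ : α → G) (D : G → Prop) : Rec 1 (fun w : List α => D (w.map σ).prod) := by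
  haveI : Fact p.Prime := ⟨hp⟩
  haveI := hAn
  letI : CommGroup (G ⧸ A) :=
    { (inferInstance : Group (G ⧸ A)) with
      mul_comm := by
        intro x y
        obtain ⟨g, rfl⟩ := QuotientGroup.mk_surjective x
        obtain ⟨h, rfl⟩ := QuotientGroup.mk_surjective y
        rw [← QuotientGroup.mk_mul, ← QuotientGroup.mk_mul, QuotientGroup.eq]
        have := hcomm h⁻¹ g⁻¹
        have h2 : (g * h)⁻¹ * (h * g) = h⁻¹ * g⁻¹ * h⁻¹⁻¹ * g⁻¹⁻¹ := by group
        rw [h2]
        exact this }
  letI : Module (ZMod p) (Additive (G ⧸ A)) := AddCommGroup.zmodModule (by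
    intro x
    obtain ⟨g, hg⟩ := QuotientGroup.mk_surjective (Additive.toMul x)
    have : (Additive.toMul x) ^ p = 1 := by
      rw [← hg, ← QuotientGroup.mk_pow, QuotientGroup.eq_one_iff]
      exact hpow g
    exact this)
  haveI : Finite (Additive (G ⧸ A)) := inferInstanceAs (Finite (G ⧸ A))
  let π : G →* Multiplicative (Additive (G ⧸ A)) :=
    { toFun := fun g => Multiplicative.ofAdd (Additive.ofMul (g : G ⧸ A))
      map_one' := rfl
      map_mul' := fun _ _ => rfl }
  refine rec_of_abelian_ker p π ?_ ?_ σ D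
  · intro x
    obtain ⟨g, hg⟩ := QuotientGroup.mk_surjective (Additive.toMul (Multiplicative.toAdd x))
    exact ⟨g, hg⟩
  · intro x y hx hy
    apply hA
    · exact (QuotientGroup.eq_one_iff x).mp hx
    · exact (QuotientGroup.eq_one_iff y).mp hy

end Vale.Agent.P329
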