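import Vale.Agent.P329.Poly
import Vale.Agent.P329.GroupOne

/-! Finite nilpotent groups of class at most three. -/

namespace Vale.Agent.P329

open scoped commutatorElement

variable {α : Type}

section BValued

variable {B : Type} [CommGroup B]

open Classical in
/-- The product of `f (w₁⋯w_{l-1})` over the occurrences `w_l = a` of `a`. -/
noncomputable def occB (a : α) (f : List α → B) : List α → B :=
  fun w => ∏ l ∈ Finset.range w.length, if w[l]? = some a then f (w.take l) else 1

theorem occB_nil (a : α) (f : List α → B) : occB a f [] = 1 := by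
  simp [occB]

open Classical in
theorem occB_snoc (a : α) (f : List α → B) (w : List α) (b : α) :
    occB a f (w ++ [b]) = occB a f w * if b = a then f w else 1 := by
  unfold occB
  rw [List.length_append, List.length_singleton, Finset.prod_range_succ]
  congr 1
  · apply Finset.prod_congr rfl
    intro l hl
    rw [Finset.mem_range] at hl
    rw [List.getElem?_append_left hl, List.take_append_of_le_length hl.le]
  · simp

theorem occB_congr {a : α} {f g : List α → B} (h : ∀ w, f w = g w) : occB a f = occB a g := by
  have : f = g := funext h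
  rw [this]

theorem occB_mul (a : α) (f g : List α → B) (w : List α) :
    occB a (fun u => f u * g u) w = occB a f w * occB a g w := by
  classical
  induction w using List.reverseRecOn with
  | nil => simp [occB_nil]
  | append_singleton w b ih =>
    rw [occB_snoc, occB_snoc, occB_snoc, ih]
    split_ifs
    · exact mul_mul_mul_comm _ _ _ _
    · simp

theorem occB_one (a : α) (w : List α) : occB a (fun _ => (1 : B)) w = 1 := by
  classical
  induction w using List.reverseRecOn with
  | nil => simp [occB_nil]
  | append_singleton w b ih =>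
    rw [occB_snoc, ih]
    simp

theorem occB_zpow (a : α) (b : B) (X : List α → ℤ) (w : List α) :
    occB a (fun u => b ^ (X u)) w = b ^ (occ a X w) := by
  classical
  induction w using List.reverseRecOn with
  | nil => simp [occB_nil, occ_nil]
  | append_singleton w c ih =>
    rw [occB_snoc, occ_snoc, ih, zpow_add]
    split_ifs <;> simp

theorem map_occB {B' : Type} [CommGroup B'] (D : B →* B') (a : α) (f : List α → B)
    (w : List α) : D (occB a f w) = occB a (fun u => D (f u)) w := by
  classical
  induction w using List.reverseRecOn with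
  | nil => simp [occB_nil]
  | append_singleton w b ih =>
    rw [occB_snoc, occB_snoc, map_mul, ih]
    split_ifs <;> simp

/-- Realizable `B`-valued functions. -/
def BR (Φ : List α → B) : Prop := ∀ c : B, Rec 1 (fun w => Φ w = c)

theorem BR.congr {Φ Ψ : List α → B} (h : BR Φ) (e : ∀ w, Ψ w = Φ w) : BR Ψ := by
  have : Ψ = Φ := funext e
  rw [this]
  exact h

theorem BR.one : BR (fun _ : List α => (1 : B)) := fun _ => Rec.const 1 _

theorem BR.mul [Finite B] {Φ Ψ : List α → B} (h : BR Φ) (h' : BR Ψ) :
    BR (fun w => Φ w * Ψ w) := by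
  intro c
  refine (Rec.exists_fin (fun d : B => (h d).and (h' (d⁻¹ * c)))).congr (fun w => ?_)
  constructor
  · intro e
    exact ⟨Φ w, rfl, by rw [← e, inv_mul_cancel_left]⟩
  · rintro ⟨d, e1, e2⟩
    show Φ w * Ψ w = c
    rw [e1, e2, mul_inv_cancel_left]

theorem BR.prod [Finite B] {ι : Type*} (s : Finset ι) {Φ : ι → List α → B}
    (h : ∀ i ∈ s, BR (Φ i)) : BR (fun w => ∏ i ∈ s, Φ i w) := by
  classical
  induction s using Finset.induction_on with
  | empty => exact BR.one.congr (fun w => by simp)
  | insert a s ha ih =>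
    refine ((h a (Finset.mem_insert_self a s)).mul
      (ih (fun i hi => h i (Finset.mem_insert_of_mem hi)))).congr (fun w => ?_)
    rw [Finset.prod_insert ha]

theorem BR.zpow [Finite B] (b : B) {X : List α → ℤ} (hX : Realz X) :
    BR (fun w => b ^ (X w)) := by
  intro c
  refine Realz.factor (I := Unit) (X := fun _ => X) (fun _ => hX) (M := Nat.card B)
    Nat.card_pos ?_
  intro w w' h hw
  rw [← hw]
  exact (zpow_eq_of_cast b (pow_card_eq_one') (h ())).symm

/-- `Φ` and its letter sums are realizable. -/
def OR (Φ : List α → B) : Prop := ∀ a, BR (occB a Φ)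

theorem OR.congr {Φ Ψ : List α → B} (h : OR Φ) (e : ∀ w, Ψ w = Φ w) : OR Ψ := by
  have : Ψ = Φ := funext e
  rw [this]
  exact h

theorem OR.one : OR (fun _ : List α => (1 : B)) := fun a => BR.one.congr (fun w => occB_one a w)

theorem OR.mul [Finite B] {Φ Ψ : List α → B} (h : OR Φ) (h' : OR Ψ) :
    OR (fun w => Φ w * Ψ w) := fun a => ((h a).mul (h' a)).congr (fun w => occB_mul a Φ Ψ w)

theorem OR.zpow [Finite B] (b : B) {X : List α → ℤ} (hX : ∀ a, Realz (occ a X)) :
    OR (fun w => b ^ (X w)) := fun a =>
  (BR.zpow b (hX a)).congr (fun w => occB_zpow a b X w)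

theorem OR.listProd [Finite B] {ι : Type*} (L : List ι) {Φ : ι → List α → B}
    (h : ∀ i ∈ L, OR (Φ i)) : OR (fun w => (L.map (fun i => Φ i w)).prod) := by
  induction L with
  | nil => exact OR.one.congr (fun w => by simp)
  | cons i L ih =>
    refine ((h i (by simp)).mul (ih (fun j hj => h j (by simp [hj])))).congr (fun w => ?_)
    simp

theorem occB_listProd {ι : Type*} (L : List ι) (Φ : ι → List α → B) (a : α) (w : List α) :
    occB a (fun u => (L.map (fun i => Φ i u)).prod) w =
      (L.map (fun i => occB a (Φ i) w)).prod := by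
  induction L with
  | nil => simpa using occB_one a w
  | cons i L ih =>
    rw [List.map_cons, List.prod_cons, ← ih, ← occB_mul]
    rfl

end BValued

open Classical in
theorem count_snoc (w : List α) (a b : α) :
    ((w ++ [b]).count a) = w.count a + if b = a then 1 else 0 := by
  rw [List.count_append, List.count_singleton]
  by_cases h : b = a <;> simp [h]

open Classical in
theorem cn_eq_count (a : α) (w : List α) : cn a w = (w.count a : ℤ) := by
  induction w using List.reverseRecOn with
  | nil => simp [cn_nil]
  | append_singleton w b ih =>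
    rw [cn_snoc, count_snoc, ih]
    push_cast
    split_ifs <;> rfl

open Classical in
theorem occ_cn_eq_choose (a : α) (w : List α) :
    occ a (cn a) w = ((w.count a).choose 2 : ℤ) := by
  induction w using List.reverseRecOn with
  | nil => simp [occ_nil]
  | append_singleton w b ih =>
    rw [occ_snoc, count_snoc, ih]
    by_cases h : b = a
    · rw [if_pos h, if_pos h, cn_eq_count, Nat.choose_succ_succ, Nat.choose_one_right]
      push_cast
      ring
    · rw [if_neg h, if_neg h, add_zero, add_zero]

section Group

variable {G : Type} [Group G]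

/-- The commutator `x⁻¹ y⁻¹ x y`. -/
def kap (x y : G) : G := x⁻¹ * y⁻¹ * x * y

theorem mul_eq_kap (x y : G) : x * y = y * x * kap x y := by
  unfold kap
  group

theorem kap_eq (x y : G) : kap x y = ⁅x⁻¹, y⁻¹⁆ := by
  rw [commutatorElement_def, inv_inv, inv_inv, kap]

theorem kap_mul_left (x y z : G) : kap (x * y) z = kap x z * kap (kap x z) y * kap y z := by
  unfold kap
  group

/-- The derived subgroup. -/
abbrev Gam (G : Type) [Group G] : Subgroup G := ⁅(⊤ : Subgroup G), (⊤ : Subgroup G)⁆

theorem kap_mem (x y : G) : kap x y ∈ Gam G := by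
  rw [kap_eq]
  exact Subgroup.commutator_mem_commutator (Subgroup.mem_top _) (Subgroup.mem_top _)

/-- Class at most three. -/
def ClassThree (G : Type) [Group G] : Prop := ⁅⁅Gam G, (⊤ : Subgroup G)⁆, (⊤ : Subgroup G)⁆ = ⊥

theorem kap_central (h : ClassThree G) {c : G} (hc : c ∈ Gam G) (x t : G) :
    kap c x * t = t * kap c x := by
  rw [← commutatorElement_eq_one_iff_mul_comm, ← Subgroup.mem_bot, ← h]
  refine Subgroup.commutator_mem_commutator ?_ (Subgroup.mem_top _)
  rw [kap_eq]
  exact Subgroup.commutator_mem_commutator (inv_mem hc) (Subgroup.mem_top _)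

theorem B_comm (h : ClassThree G) {c d : G} (hc : c ∈ Gam G)
    (hd : d ∈ Gam G) : c * d = d * c := by
  have h1 : ⁅Gam G, Gam G⁆ = ⊥ := by
    apply Subgroup.commutator_commutator_eq_bot_of_rotate
    · rw [Subgroup.commutator_comm (⊤ : Subgroup G) (Gam G)]
      exact h
    · exact h
  rw [← commutatorElement_eq_one_iff_mul_comm, ← Subgroup.mem_bot, ← h1]
  exact Subgroup.commutator_mem_commutator hc hd

end Group

/-- The derived subgroup of a group of class at most three. -/
def BT {G : Type} [Group G] (_h : ClassThree G) : Type := Gam G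

instance {G : Type} [Group G] (h : ClassThree G) : CommGroup (BT h) :=
  { (inferInstance : Group (Gam G)) with
    mul_comm := fun x y => Subtype.ext (B_comm h x.2 y.2) }

instance {G : Type} [Group G] [Finite G] (h : ClassThree G) : Finite (BT h) :=
  inferInstanceAs (Finite (Gam G))

section Main

variable {G : Type} [Group G] (h : ClassThree G)

include h

/-- The commutator as an element of the derived subgroup. -/
def kB (x y : G) : BT h := ⟨kap x y, kap_mem x y⟩

theorem kap_kap_eq_one {c : G} (hc : c ∈ Gam G) (x t : G) :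
    kap (kap c x) t = 1 := by
  have h1 := kap_central h hc x t
  have h3 := mul_eq_kap (kap c x) t
  rw [h1] at h3
  exact (mul_eq_left.mp h3.symm)

/-- The homomorphism `c ↦ [c, x]`. -/
def DB (x : G) : BT h →* BT h where
  toFun := fun c => kB h c.1 x
  map_one' := by
    apply Subtype.ext
    show kap 1 x = 1
    unfold kap
    group
  map_mul' := by
    intro c d
    apply Subtype.ext
    show kap (c.1 * d.1) x = kap c.1 x * kap d.1 x
    rw [kap_mul_left, kap_kap_eq_one h c.2, mul_one]

theorem DB_DB (x y : G) (c : BT h) : DB h x (DB h y c) = 1 := by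
  apply Subtype.ext
  exact kap_kap_eq_one h c.2 y x

theorem DB_mul_right (x y : G) (c : BT h) :
    DB h (x * y) c = DB h x c * DB h y c := by
  apply Subtype.ext
  show kap c.1 (x * y) = kap c.1 x * kap c.1 y
  have h1 := kap_central h c.2 x (kap c.1 y)
  have h2 := kap_central h c.2 x y
  have h3 : kap c.1 (x * y) = kap c.1 y * (y⁻¹ * (kap c.1 x * y)) := by
    unfold kap
    group
  rw [h3, h2, inv_mul_cancel_left, h1]

theorem DB_one_right (c : BT h) : DB h 1 c = 1 := by
  apply Subtype.ext
  show kap c.1 1 = 1
  unfold kap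
  group

theorem DB_pow_right (x : G) (n : ℕ) (c : BT h) : DB h (x ^ n) c = DB h x c ^ n := by
  induction n with
  | zero => rw [pow_zero, pow_zero, DB_one_right]
  | succ n ih => rw [pow_succ, pow_succ, DB_mul_right, ih]

theorem kB_mul_left (x y z : G) :
    kB h (x * y) z = kB h x z * DB h y (kB h x z) * kB h y z := by
  apply Subtype.ext
  exact kap_mul_left x y z

theorem kB_one_left (z : G) : kB h 1 z = 1 := by
  apply Subtype.ext
  show kap 1 z = 1
  unfold kap
  group

theorem DB_kB_mul (t x y z : G) :
    DB h t (kB h (x * y) z) = DB h t (kB h x z) * DB h t (kB h y z) := by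
  rw [kB_mul_left h, map_mul, map_mul, DB_DB, mul_one]

theorem DB_kB_pow (t x z : G) (n : ℕ) :
    DB h t (kB h (x ^ n) z) = DB h t (kB h x z) ^ n := by
  induction n with
  | zero => rw [pow_zero, pow_zero, kB_one_left, map_one]
  | succ n ih => rw [pow_succ, pow_succ, DB_kB_mul, ih]

theorem kB_pow (x z : G) (n : ℕ) :
    kB h (x ^ n) z = kB h x z ^ n * DB h x (kB h x z) ^ (n.choose 2) := by
  induction n with
  | zero => rw [pow_zero, pow_zero, kB_one_left, Nat.choose_zero_succ, pow_zero, mul_one]
  | succ n ih =>
    rw [pow_succ, kB_mul_left h, DB_kB_pow, ih, Nat.choose_succ_succ, Nat.choose_one_right,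
      pow_succ (kB h x z), pow_add]
    generalize kB h x z ^ n = A
    generalize DB h x (kB h x z) ^ n = B'
    generalize DB h x (kB h x z) ^ (n.choose 2) = C'
    generalize kB h x z = D'
    rw [mul_assoc (A * C'), mul_comm B' D', ← mul_assoc, mul_assoc A C' D', mul_comm C' D',
      ← mul_assoc, mul_assoc, mul_comm C' B']

open Classical in
/-- The ordered product of the letters of `u` along the list `L`. -/
noncomputable def Qp (σ : α → G) (L : List α) (u : List α) : G :=
  (L.map (fun b => σ b ^ (u.count b))).prod

theorem DB_Qp (σ : α → G) (L : List α) (u : List α) (z : G) (t : G) :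
    DB h t (kB h (Qp σ L u) z) = (L.map (fun b => DB h t (kB h (σ b) z) ^ (cn b u))).prod := by
  classical
  induction L with
  | nil =>
    rw [List.map_nil, List.prod_nil]
    show DB h t (kB h 1 z) = 1
    rw [kB_one_left, map_one]
  | cons b L ih =>
    rw [List.map_cons, List.prod_cons, ← ih]
    have : Qp σ (b :: L) u = σ b ^ (u.count b) * Qp σ L u := by
      simp [Qp]
    rw [this, DB_kB_mul, DB_kB_pow, cn_eq_count, zpow_natCast]

theorem D_Qp (σ : α → G) (L : List α) (u : List α) (c : BT h) :
    DB h (Qp σ L u) c = (L.map (fun b => DB h (σ b) c ^ (cn b u))).prod := by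
  classical
  induction L with
  | nil =>
    rw [List.map_nil, List.prod_nil]
    exact DB_one_right h c
  | cons b L ih =>
    rw [List.map_cons, List.prod_cons, ← ih]
    have : Qp σ (b :: L) u = σ b ^ (u.count b) * Qp σ L u := by
      simp [Qp]
    rw [this, DB_mul_right, DB_pow_right, cn_eq_count, zpow_natCast]

variable [Finite G] [Finite α]

theorem OR_kB_Qp (σ : α → G) (L : List α) (z : G) :
    OR (fun u => kB h (Qp σ L u) z) := by
  classical
  induction L with
  | nil =>
    refine OR.one.congr (fun w => ?_)
    exact kB_one_left h z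
  | cons b L ih =>
    have e : ∀ u, kB h (Qp σ (b :: L) u) z =
        ((kB h (σ b) z ^ (cn b u) * DB h (σ b) (kB h (σ b) z) ^ (occ b (cn b) u)) *
          (L.map (fun b' => DB h (σ b') (kB h (σ b) z) ^ (cn b u * cn b' u))).prod) *
          kB h (Qp σ L u) z := by
      intro u
      have e1 : Qp σ (b :: L) u = σ b ^ (u.count b) * Qp σ L u := by
        simp [Qp]
      rw [e1, kB_mul_left h, D_Qp, kB_pow h, occ_cn_eq_choose]
      congr 2
      · rw [cn_eq_count, zpow_natCast, zpow_natCast]
      · congr 1
        refine List.map_congr_left (fun b' _ => ?_)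
        rw [← kB_pow h, DB_kB_pow, cn_eq_count b, ← zpow_natCast, ← zpow_mul]
    refine OR.congr ?_ e
    refine OR.mul (OR.mul (OR.mul ?_ ?_) ?_) ih
    · exact OR.zpow _ (fun a => realz_occ_cn b a)
    · exact OR.zpow _ (fun a => realz_occ_occ_cn a b b)
    · exact OR.listProd L (fun b' _ => OR.zpow _ (fun a => realz_occ_cn_cn b b' a))

/-- **Theorem 2**: groups of nilpotency class at most three. -/
theorem rec_of_classThree (σ : α → G) (P : G → Prop) :
    Rec 1 (fun w : List α => P (w.map σ).prod) := by
  classical
  haveI := Fintype.ofFinite α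
  let L0 : List α := (Finset.univ : Finset α).toList
  have hL0 : L0.Nodup := Finset.nodup_toList _
  -- moving the new letter to its place
  have hmove : ∀ a : α, ∃ L2 : List α, ∀ w : List α,
      Qp σ L0 w * σ a = Qp σ L0 (w ++ [a]) * kap (Qp σ L2 w) (σ a) := by
    intro a
    have ha : a ∈ L0 := Finset.mem_toList.mpr (Finset.mem_univ a)
    obtain ⟨L1, L2, hL⟩ := List.append_of_mem ha
    rw [hL] at hL0
    have hn := List.nodup_append.mp hL0
    have ha2 : a ∉ L2 := (List.nodup_cons.mp hn.2.1).1
    have ha1 : a ∉ L1 := fun h' => hn.2.2 a h' a (by simp) rfl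
    refine ⟨L2, fun w => ?_⟩
    have hQ : ∀ (L : List α), a ∉ L → Qp σ L (w ++ [a]) = Qp σ L w := by
      intro L haL
      unfold Qp
      congr 1
      refine List.map_congr_left (fun b hb => ?_)
      rw [count_snoc, if_neg (fun e => haL (by rw [e]; exact hb)), add_zero]
    have hsplit : ∀ u : List α, Qp σ L0 u = Qp σ L1 u * (σ a ^ (u.count a) * Qp σ L2 u) := by
      intro u
      rw [hL]
      simp [Qp]
    rw [hsplit, hsplit, hQ L1 ha1, hQ L2 ha2, count_snoc, if_pos rfl, pow_succ]
    have := mul_eq_kap (Qp σ L2 w) (σ a)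
    rw [mul_assoc, mul_assoc, this]
    simp only [mul_assoc]
  choose L2 hL2 using hmove
  -- the collected part
  have hCmem : ∀ w : List α, (Qp σ L0 w)⁻¹ * (w.map σ).prod ∈ Gam G ∧
      ∀ a, (Qp σ L0 (w ++ [a]))⁻¹ * ((w ++ [a]).map σ).prod =
        kap (Qp σ (L2 a) w) (σ a) * ((Qp σ L0 w)⁻¹ * (w.map σ).prod) *
          kap ((Qp σ L0 w)⁻¹ * (w.map σ).prod) (σ a) := by
    intro w
    have hrec : ∀ (w : List α) a, (Qp σ L0 (w ++ [a]))⁻¹ * ((w ++ [a]).map σ).prod =
        kap (Qp σ (L2 a) w) (σ a) * ((Qp σ L0 w)⁻¹ * (w.map σ).prod) *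
          kap ((Qp σ L0 w)⁻¹ * (w.map σ).prod) (σ a) := by
      intro w a
      have e1 := hL2 a w
      have e2 : kap (Qp σ (L2 a) w) (σ a) = (Qp σ L0 (w ++ [a]))⁻¹ * (Qp σ L0 w * σ a) := by
        rw [e1, inv_mul_cancel_left]
      rw [e2, List.map_append, List.prod_append, List.map_singleton, List.prod_singleton]
      unfold kap
      group
    refine ⟨?_, hrec w⟩
    induction w using List.reverseRecOn with
    | nil =>
      have : Qp σ L0 ([] : List α) = 1 := by
        unfold Qp
        apply List.prod_eq_one
        intro x hx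
        obtain ⟨b, -, rfl⟩ := List.mem_map.mp hx
        simp
      rw [this]
      simp
    | append_singleton w a ih =>
      rw [hrec]
      exact mul_mem (mul_mem (kap_mem _ _) ih) (kap_mem _ _)
  let C : List α → BT h := fun w =>
    ⟨(Qp σ L0 w)⁻¹ * (w.map σ).prod, (hCmem w).1⟩
  let E : α → List α → BT h := fun a w =>
    kB h (Qp σ (L2 a) w) (σ a)
  have hCrec : ∀ w a, C (w ++ [a]) = E a w * C w * DB h (σ a) (C w) := by
    intro w a
    apply Subtype.ext
    exact (hCmem w).2 a
  have hC0 : C [] = 1 := by
    apply Subtype.ext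
    show (Qp σ L0 ([] : List α))⁻¹ * (List.map σ []).prod = 1
    have : Qp σ L0 ([] : List α) = 1 := by
      unfold Qp
      apply List.prod_eq_one
      intro x hx
      obtain ⟨b, -, rfl⟩ := List.mem_map.mp hx
      simp
    rw [this]
    simp
  let F : List α → BT h := fun w => ∏ b : α, occB b (E b) w
  let S : List α → BT h := fun w =>
    ∏ a : α, ∏ b : α, occB a (occB b (fun u => DB h (σ a) (E b u))) w
  have hF0 : F [] = 1 := Finset.prod_eq_one (fun b _ => occB_nil b _)
  have hS0 : S [] = 1 := Finset.prod_eq_one (fun a _ => Finset.prod_eq_one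
    (fun b _ => occB_nil a _))
  have hFrec : ∀ w a, F (w ++ [a]) = F w * E a w := by
    intro w a
    show ∏ b : α, occB b (E b) (w ++ [a]) = (∏ b : α, occB b (E b) w) * E a w
    simp only [occB_snoc, Finset.prod_mul_distrib]
    congr 1
    rw [Finset.prod_ite_eq]
    simp
  have hSrec : ∀ w a, S (w ++ [a]) = S w * DB h (σ a) (F w) := by
    intro w a
    show ∏ a' : α, ∏ b : α, occB a' (occB b (fun u => DB h (σ a') (E b u))) (w ++ [a]) =
      (∏ a' : α, ∏ b : α, occB a' (occB b (fun u => DB h (σ a') (E b u))) w) *
        DB h (σ a) (∏ b : α, occB b (E b) w)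
    simp only [occB_snoc, Finset.prod_mul_distrib]
    congr 1
    rw [map_prod, Finset.prod_eq_single a]
    · refine Finset.prod_congr rfl (fun b _ => ?_)
      rw [if_pos rfl, map_occB]
    · intro a' _ ha'
      exact Finset.prod_eq_one (fun b _ => if_neg (fun e => ha' e.symm))
    · simp
  have hCFS : ∀ w, C w = F w * S w ∧ ∀ x, DB h x (S w) = 1 := by
    intro w
    induction w using List.reverseRecOn with
    | nil => exact ⟨by rw [hC0, hF0, hS0, mul_one], fun x => by rw [hS0, map_one]⟩
    | append_singleton w a ih =>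
      obtain ⟨ih1, ih2⟩ := ih
      constructor
      · rw [hCrec, hFrec, hSrec, ih1, map_mul, ih2, mul_one]
        rw [mul_comm (F w) (E a w)]
        simp only [mul_assoc]
      · intro x
        rw [hSrec, map_mul, ih2, DB_DB, mul_one]
  have hBRC : BR C := by
    have h1 : BR F := BR.prod _ (fun b _ => OR_kB_Qp h σ (L2 b) (σ b) b)
    have h2 : BR S := by
      refine BR.prod _ (fun a _ => BR.prod _ (fun b _ => ?_))
      have h3 : OR (occB b (fun u => DB h (σ a) (E b u))) := by
        have h4 : ∀ u, DB h (σ a) (E b u) =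
            ((L2 b).map (fun c => DB h (σ a) (kB h (σ c) (σ b)) ^ (cn c u))).prod :=
          fun u => DB_Qp h σ (L2 b) u (σ b) (σ a)
        rw [occB_congr h4]
        refine (OR.listProd (L2 b) (Φ := fun c w =>
          DB h (σ a) (kB h (σ c) (σ b)) ^ (occ b (cn c) w)) ?_).congr (fun w => ?_)
        · intro c _
          exact OR.zpow _ (fun a' => realz_occ_occ_cn a' b c)
        · rw [occB_listProd]
          congr 1
          refine List.map_congr_left (fun c _ => ?_)
          rw [occB_zpow]
      exact h3 a
    exact (h1.mul h2).congr (fun w => (hCFS w).1)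
  have hQ : ∀ g : G, Rec 1 (fun w : List α => Qp σ L0 w = g) := by
    intro g
    refine Realz.factor (X := fun a : α => cn a) (fun a => realz_cn a) (M := Nat.card G)
      Nat.card_pos ?_
    intro w w' hww hw
    rw [← hw]
    unfold Qp
    congr 1
    refine List.map_congr_left (fun b _ => ?_)
    have := zpow_eq_of_cast (N := Nat.card G) (σ b) pow_card_eq_one' (hww b)
    rw [cn_eq_count, cn_eq_count, zpow_natCast, zpow_natCast] at this
    exact this.symm
  refine (Rec.exists_fin (fun gc : G × BT h =>
    (Rec.const 1 (P (gc.1 * gc.2.1))).and ((hQ gc.1).and (hBRC gc.2)))).congr (fun w => ?_)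
  constructor
  · intro hw
    refine ⟨(Qp σ L0 w, C w), ?_, rfl, rfl⟩
    show P (Qp σ L0 w * ((Qp σ L0 w)⁻¹ * (w.map σ).prod))
    rw [mul_inv_cancel_left]
    exact hw
  · rintro ⟨⟨g, c⟩, h1, h2, h3⟩
    simp only at h1 h2 h3
    rw [← h2, ← h3] at h1
    have : Qp σ L0 w * ((Qp σ L0 w)⁻¹ * (w.map σ).prod) = (w.map σ).prod :=
      mul_inv_cancel_left _ _
    rw [← this]
    exact h1

end Main

end Vale.Agent.P329
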