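import Vale.Agent.P329.Defs

/-! Closure properties, in predicate form. -/

namespace Vale.Agent.P329

variable {α : Type}

/-- Predicate form: the language of all words satisfying `D` has generalized star height
at most `n`. -/
def Rec (n : ℕ) (D : List α → Prop) : Prop :=
  GshLE n ({w | D w} : Set (List α))

theorem Rec.congr {n : ℕ} {D E : List α → Prop} (h : Rec n D) (e : ∀ w, E w ↔ D w) :
    Rec n E := by
  have : E = D := by
    funext w
    exact propext (e w)
  rw [this]
  exact h

theorem Rec.mono {m n : ℕ} {D : List α → Prop} (h : Rec m D) (e : m ≤ n) : Rec n D := by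
  obtain ⟨P, h1, h2⟩ := h
  exact ⟨P, h1, h2.trans e⟩

theorem Rec.false (n : ℕ) : Rec n (fun _ : List α => False) := by
  refine ⟨.zero, ?_, Nat.zero_le _⟩
  ext w
  simp only [GRE.lang]
  exact Iff.rfl

theorem Rec.nil (n : ℕ) : Rec n (fun w : List α => w = []) := by
  refine ⟨.one, ?_, Nat.zero_le _⟩
  ext w
  simp only [GRE.lang]
  exact Iff.rfl

theorem Rec.single (n : ℕ) (a : α) : Rec n (fun w : List α => w = [a]) := by
  refine ⟨.letter a, ?_, Nat.zero_le _⟩
  ext w
  simp only [GRE.lang]
  exact Iff.rfl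

theorem Rec.or {n : ℕ} {D E : List α → Prop} (hD : Rec n D) (hE : Rec n E) :
    Rec n (fun w => D w ∨ E w) := by
  obtain ⟨P, h1, h2⟩ := hD
  obtain ⟨Q, h3, h4⟩ := hE
  refine ⟨.plus P Q, ?_, max_le h2 h4⟩
  ext w
  simp only [GRE.lang, h1, h3]
  exact Iff.rfl

theorem Rec.not {n : ℕ} {D : List α → Prop} (hD : Rec n D) :
    Rec n (fun w => ¬ D w) := by
  obtain ⟨P, h1, h2⟩ := hD
  refine ⟨.neg P, ?_, h2⟩
  ext w
  simp only [GRE.lang, h1]
  exact Iff.rfl

theorem Rec.cat {n : ℕ} {D E : List α → Prop} (hD : Rec n D) (hE : Rec n E) :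
    Rec n (fun w => ∃ u v, w = u ++ v ∧ D u ∧ E v) := by
  obtain ⟨P, h1, h2⟩ := hD
  obtain ⟨Q, h3, h4⟩ := hE
  refine ⟨.cat P Q, ?_, max_le h2 h4⟩
  ext w
  simp only [GRE.lang, h1, h3, Language.mem_mul]
  constructor
  · rintro ⟨u, hu, v, hv, rfl⟩
    exact ⟨u, v, rfl, hu, hv⟩
  · rintro ⟨u, v, rfl, hu, hv⟩
    exact ⟨u, hu, v, hv, rfl⟩

theorem Rec.star {n : ℕ} {D : List α → Prop} (hD : Rec n D) :
    Rec (n + 1) (fun w => ∃ L : List (List α), w = L.flatten ∧ ∀ y ∈ L, D y) := by
  obtain ⟨P, h1, h2⟩ := hD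
  refine ⟨.star P, ?_, Nat.succ_le_succ h2⟩
  ext w
  simp only [GRE.lang, h1, Language.mem_kstar]
  exact Iff.rfl

theorem Rec.and {n : ℕ} {D E : List α → Prop} (hD : Rec n D) (hE : Rec n E) :
    Rec n (fun w => D w ∧ E w) :=
  (hD.not.or hE.not).not.congr (fun w => by tauto)

theorem Rec.true (n : ℕ) : Rec n (fun _ : List α => True) :=
  (Rec.false n).not.congr (fun w => by tauto)

theorem Rec.const (n : ℕ) (p : Prop) : Rec n (fun _ : List α => p) := by
  by_cases h : p
  · exact (Rec.true n).congr (fun w => by tauto)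
  · exact (Rec.false n).congr (fun w => by tauto)

theorem Rec.exists_mem {n : ℕ} {ι : Type*} (s : Finset ι) {D : ι → List α → Prop}
    (h : ∀ i ∈ s, Rec n (D i)) : Rec n (fun w => ∃ i ∈ s, D i w) := by
  classical
  induction s using Finset.induction_on with
  | empty => exact (Rec.false n).congr (fun w => by simp)
  | insert a s ha ih =>
    have h1 := h a (Finset.mem_insert_self a s)
    have h2 := ih (fun i hi => h i (Finset.mem_insert_of_mem hi))
    exact (h1.or h2).congr (fun w => by simp)

theorem Rec.exists_fin {n : ℕ} {ι : Type*} [Finite ι] {D : ι → List α → Prop}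
    (h : ∀ i, Rec n (D i)) : Rec n (fun w => ∃ i, D i w) := by
  classical
  haveI := Fintype.ofFinite ι
  exact (Rec.exists_mem Finset.univ (fun i _ => h i)).congr (fun w => by simp)

theorem Rec.forall_fin {n : ℕ} {ι : Type*} [Finite ι] {D : ι → List α → Prop}
    (h : ∀ i, Rec n (D i)) : Rec n (fun w => ∀ i, D i w) :=
  (Rec.exists_fin (fun i => (h i).not)).not.congr (fun w => by simp)

/-! ### Quotients -/

theorem GRE.exists_lquot (e : GRE α) (a : α) :
    ∃ e' : GRE α, (∀ w : List α, w ∈ e'.lang ↔ (a :: w) ∈ e.lang) ∧ e'.sh ≤ e.sh := by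
  classical
  induction e with
  | zero =>
    refine ⟨.zero, fun w => ?_, le_refl _⟩
    exact Iff.rfl
  | one =>
    refine ⟨.zero, fun w => ?_, le_refl _⟩
    simp [GRE.lang, Language.mem_one]
  | letter b =>
    by_cases h : a = b
    · refine ⟨.one, fun w => ?_, le_refl _⟩
      subst h
      simp only [GRE.lang, Language.mem_one]
      constructor
      · rintro rfl
        exact Set.mem_singleton _
      · intro h
        have := Set.mem_singleton_iff.mp h
        simpa using this
    · refine ⟨.zero, fun w => ?_, le_refl _⟩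
      simp only [GRE.lang]
      constructor
      · intro h
        exact absurd h (Language.notMem_zero w)
      · intro h'
        have := Set.mem_singleton_iff.mp h'
        simp only [List.cons.injEq] at this
        exact absurd this.1 h
  | plus P Q ihP ihQ =>
    obtain ⟨P', hP, hP'⟩ := ihP
    obtain ⟨Q', hQ, hQ'⟩ := ihQ
    refine ⟨.plus P' Q', fun w => ?_, max_le_max hP' hQ'⟩
    simp only [GRE.lang, Language.mem_add, hP, hQ]
  | cat P Q ihP ihQ =>
    obtain ⟨P', hP, hP'⟩ := ihP
    obtain ⟨Q', hQ, hQ'⟩ := ihQ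
    by_cases h : ([] : List α) ∈ P.lang
    · refine ⟨.plus (.cat P' Q) Q', fun w => ?_, ?_⟩
      · simp only [GRE.lang, Language.mem_add, Language.mem_mul, hQ]
        constructor
        · rintro (⟨u, hu, v, hv, rfl⟩ | hw)
          · exact ⟨a :: u, (hP u).mp hu, v, hv, rfl⟩
          · exact ⟨[], h, _, hw, rfl⟩
        · rintro ⟨u, hu, v, hv, huv⟩
          rcases u with _ | ⟨b, u⟩
          · right
            simp only [List.nil_append] at huv
            rw [← huv]
            exact hv
          · left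
            simp only [List.cons_append, List.cons.injEq] at huv
            obtain ⟨rfl, rfl⟩ := huv
            exact ⟨u, (hP u).mpr hu, v, hv, rfl⟩
      · simp only [GRE.sh]
        omega
    · refine ⟨.cat P' Q, fun w => ?_, ?_⟩
      · simp only [GRE.lang, Language.mem_mul]
        constructor
        · rintro ⟨u, hu, v, hv, rfl⟩
          exact ⟨a :: u, (hP u).mp hu, v, hv, rfl⟩
        · rintro ⟨u, hu, v, hv, huv⟩
          rcases u with _ | ⟨b, u⟩
          · exact absurd hu h
          · simp only [List.cons_append, List.cons.injEq] at huv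
            obtain ⟨rfl, rfl⟩ := huv
            exact ⟨u, (hP u).mpr hu, v, hv, rfl⟩
      · simp only [GRE.sh]
        omega
  | neg P ih =>
    obtain ⟨P', hP, hP'⟩ := ih
    refine ⟨.neg P', fun w => ?_, hP'⟩
    exact not_congr (hP w)
  | star P ih =>
    obtain ⟨P', hP, hP'⟩ := ih
    refine ⟨.cat P' (.star P), fun w => ?_, ?_⟩
    · simp only [GRE.lang, Language.mem_mul]
      constructor
      · rintro ⟨u, hu, v, hv, rfl⟩
        rw [Language.mem_kstar] at hv ⊢
        obtain ⟨L, rfl, hL⟩ := hv
        refine ⟨(a :: u) :: L, rfl, ?_⟩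
        intro y hy
        rcases List.mem_cons.mp hy with rfl | hy
        · exact (hP u).mp hu
        · exact hL y hy
      · intro h
        rw [Language.mem_kstar_iff_exists_nonempty] at h
        obtain ⟨L, hL1, hL2⟩ := h
        rcases L with _ | ⟨x, L⟩
        · simp at hL1
        · have hx := hL2 x (by simp)
          obtain ⟨hx1, hx2⟩ := hx
          rcases x with _ | ⟨b, x⟩
          · exact absurd rfl hx2
          · simp only [List.flatten_cons, List.cons_append, List.cons.injEq] at hL1
            obtain ⟨rfl, rfl⟩ := hL1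
            refine ⟨x, (hP x).mpr hx1, L.flatten, ?_, rfl⟩
            exact Language.join_mem_kstar (fun y hy => (hL2 y (by simp [hy])).1)
    · simp only [GRE.sh]
      omega

theorem Rec.lquot {n : ℕ} {D : List α → Prop} (hD : Rec n D) (u : List α) :
    Rec n (fun w => D (u ++ w)) := by
  induction u generalizing D with
  | nil => exact hD
  | cons a u ih =>
    obtain ⟨P, h1, h2⟩ := hD
    obtain ⟨P', h3, h4⟩ := P.exists_lquot a
    have h5 : Rec n (fun w => D (a :: w)) := by
      refine ⟨P', ?_, h4.trans h2⟩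
      ext w
      rw [h3 w, h1]
      exact Iff.rfl
    exact ih h5

/-- Reversal of an expression. -/
theorem GRE.exists_rev (e : GRE α) :
    ∃ e' : GRE α, (∀ w : List α, w ∈ e'.lang ↔ w.reverse ∈ e.lang) ∧ e'.sh ≤ e.sh := by
  induction e with
  | zero => exact ⟨.zero, fun w => Iff.rfl, le_refl _⟩
  | one =>
    refine ⟨.one, fun w => ?_, le_refl _⟩
    simp [GRE.lang, Language.mem_one]
  | letter b =>
    refine ⟨.letter b, fun w => ?_, le_refl _⟩
    simp only [GRE.lang]
    constructor
    · intro h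
      have h := Set.mem_singleton_iff.mp h
      subst h
      exact Set.mem_singleton_iff.mpr (by simp)
    · intro h
      have h := Set.mem_singleton_iff.mp h
      exact Set.mem_singleton_iff.mpr (by
        rw [← List.reverse_reverse w, h]
        simp)
  | plus P Q ihP ihQ =>
    obtain ⟨P', hP, hP'⟩ := ihP
    obtain ⟨Q', hQ, hQ'⟩ := ihQ
    refine ⟨.plus P' Q', fun w => ?_, max_le_max hP' hQ'⟩
    simp only [GRE.lang, Language.mem_add, hP, hQ]
  | cat P Q ihP ihQ =>
    obtain ⟨P', hP, hP'⟩ := ihP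
    obtain ⟨Q', hQ, hQ'⟩ := ihQ
    refine ⟨.cat Q' P', fun w => ?_, ?_⟩
    · simp only [GRE.lang, Language.mem_mul]
      constructor
      · rintro ⟨u, hu, v, hv, rfl⟩
        exact ⟨v.reverse, (hP v).mp hv, u.reverse, (hQ u).mp hu, by simp⟩
      · rintro ⟨u, hu, v, hv, huv⟩
        refine ⟨v.reverse, (hQ _).mpr (by simpa using hv), u.reverse,
          (hP _).mpr (by simpa using hu), ?_⟩
        rw [← List.reverse_append, huv, List.reverse_reverse]
    · simp only [GRE.sh]
      omega
  | neg P ih =>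
    obtain ⟨P', hP, hP'⟩ := ih
    refine ⟨.neg P', fun w => ?_, hP'⟩
    exact not_congr (hP w)
  | star P ih =>
    obtain ⟨P', hP, hP'⟩ := ih
    refine ⟨.star P', fun w => ?_, Nat.succ_le_succ hP'⟩
    simp only [GRE.lang, Language.mem_kstar]
    constructor
    · rintro ⟨L, rfl, hL⟩
      refine ⟨(L.map List.reverse).reverse, ?_, ?_⟩
      · rw [List.reverse_flatten]
      · intro y hy
        simp only [List.mem_reverse, List.mem_map] at hy
        obtain ⟨x, hx, rfl⟩ := hy
        exact (hP x).mp (hL x hx)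
    · rintro ⟨L, hw, hL⟩
      refine ⟨(L.map List.reverse).reverse, ?_, ?_⟩
      · rw [← List.reverse_flatten, ← hw, List.reverse_reverse]
      · intro y hy
        simp only [List.mem_reverse, List.mem_map] at hy
        obtain ⟨x, hx, rfl⟩ := hy
        exact (hP _).mpr (by simpa using hL x hx)

theorem Rec.reverse {n : ℕ} {D : List α → Prop} (hD : Rec n D) :
    Rec n (fun w => D w.reverse) := by
  obtain ⟨P, h1, h2⟩ := hD
  obtain ⟨P', h3, h4⟩ := P.exists_rev
  refine ⟨P', ?_, h4.trans h2⟩
  ext w
  rw [h3 w, h1]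
  exact Iff.rfl

theorem Rec.rquot {n : ℕ} {D : List α → Prop} (hD : Rec n D) (v : List α) :
    Rec n (fun w => D (w ++ v)) :=
  ((hD.reverse.lquot v.reverse).reverse).congr (fun w => by simp)

/-! ### Words over a subset of the alphabet -/

theorem Rec.subalphabet [Finite α] (n : ℕ) (S : Set α) :
    Rec n (fun w : List α => ∀ a ∈ w, a ∈ S) := by
  classical
  have h : ∀ a : α, Rec n (fun w : List α => a ∉ S ∧
      ∃ u v, w = u ++ v ∧ True ∧ ∃ u' v', v = u' ++ v' ∧ u' = [a] ∧ True) := fun a =>
    (Rec.const n _).and (Rec.cat (Rec.true n) (Rec.cat (Rec.single n a) (Rec.true n)))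
  refine (Rec.exists_fin h).not.congr (fun w => ?_)
  constructor
  · rintro h1 ⟨a, ha, u, v, rfl, -, u', v', rfl, rfl, -⟩
    exact ha (h1 a (by simp))
  · intro h1 a ha
    by_contra h2
    obtain ⟨u, v, rfl⟩ := List.append_of_mem ha
    exact h1 ⟨a, h2, u, a :: v, rfl, trivial, [a], v, rfl, rfl, trivial⟩

end Vale.Agent.P329
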