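import Mathlib

/-! Generalized regular expressions, the language they denote, and their star height. -/

namespace Vale.Agent.P329

/-- Generalized regular expressions over the alphabet `α`. -/
inductive GRE (α : Type) : Type where
  | zero : GRE α
  | one : GRE α
  | letter (a : α) : GRE α
  | plus (P Q : GRE α) : GRE α
  | cat (P Q : GRE α) : GRE α
  | neg (P : GRE α) : GRE α
  | star (P : GRE α) : GRE α

variable {α : Type}

/-- The language denoted by a generalized regular expression. -/
def GRE.lang : GRE α → Language α
  | .zero => 0
  | .one => 1
  | .letter a => {[a]}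
  | .plus P Q => P.lang + Q.lang
  | .cat P Q => P.lang * Q.lang
  | .neg P => (P.lang)ᶜ
  | .star P => KStar.kstar P.lang

/-- The star height of a generalized regular expression. -/
def GRE.sh : GRE α → ℕ
  | .zero => 0
  | .one => 0
  | .letter _ => 0
  | .plus P Q => max P.sh Q.sh
  | .cat P Q => max P.sh Q.sh
  | .neg P => P.sh
  | .star P => P.sh + 1

/-- `GshLE n L`: the language `L` has generalized star height at most `n`. -/
def GshLE (n : ℕ) (L : Language α) : Prop :=
  ∃ P : GRE α, P.lang = L ∧ P.sh ≤ n

end Vale.Agent.P329
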