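import Vale.Agent.P329.Prime

/-! Occurrences of a letter at a prescribed prefix value in an elementary abelian group, and
groups that are abelian-by-(elementary abelian). -/

namespace Vale.Agent.P329

variable {α : Type}

section Cyc

variable [Finite α]

theorem realz_count (a : α) : Realz (occ a (fun _ => 1)) := by
  haveI : Fact (Nat.Prime 2) := ⟨Nat.prime_two⟩
  let τ : α → ZMod 2 := fun _ => 0
  refine (((devCond_E τ a).realz_total (0, false)).sub
    ((devCond_T τ a rfl).realz_total (0, false))).congr (fun w => ?_)
  rw [total_ET τ a rfl]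
  refine occ_congr (fun u => ?_) w
  exact (ind_true (by
    induction u with
    | nil => simp
    | cons b u ih =>
      rw [List.map_cons, List.sum_cons, ih]
      rfl)).symm

variable {p : ℕ} [Fact p.Prime]

theorem sum_replicate_letter (τ : α → ZMod p) (a : α) (j : ℕ) :
    ((List.replicate j a).map τ).sum = j * τ a := by
  simp

/-- Shifting the initial prefix value. -/
theorem realz_shift {a : α} {f g : List α → ℤ} (u : List α) (h : Realz (occ a f))
    (hg : ∀ w, g w = f (u ++ w)) : Realz (occ a g) := by
  refine ((h.lshift u).sub (Realz.const (occ a f u))).congr (fun w => ?_)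
  rw [occ_append, occ_congr hg w]
  ring

theorem realz_cyc (τ : α → ZMod p) (a : α) (s : ZMod p) :
    Realz (occ a (fun u => ind (s + (u.map τ).sum = 0))) := by
  classical
  haveI : NeZero p := ⟨(Fact.out : p.Prime).ne_zero⟩
  by_cases ha : τ a = 0
  · have h0 : Realz (occ a (fun u => ind ((u.map τ).sum = 0))) :=
      (((devCond_E τ a).realz_total (0, false)).sub
        ((devCond_T τ a ha).realz_total (0, false))).congr (fun w => (total_ET τ a ha w).symm)
    by_cases he : ∃ e, τ e ≠ 0
    · obtain ⟨e, he⟩ := he
      refine realz_shift (List.replicate (s * (τ e)⁻¹).val e) h0 (fun w => ind_congr ?_)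
      rw [List.map_append, List.sum_append, sum_replicate_letter, ZMod.natCast_zmod_val,
        mul_assoc, inv_mul_cancel₀ he, mul_one]
    · push Not at he
      have hz : ∀ u : List α, (u.map τ).sum = 0 := by
        intro u
        induction u with
        | nil => rfl
        | cons b u ih => rw [List.map_cons, List.sum_cons, ih, he, add_zero]
      refine ((realz_count a).smul (ind (s = 0))).congr (fun w => ?_)
      rw [← occ_smul]
      refine occ_congr (fun u => ?_) w
      rw [hz, add_zero, mul_one]
  · -- differences
    have hD0 : Realz (occ a (fun u => ind ((u.map τ).sum = 0) -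
        ind (τ a + (u.map τ).sum = 0))) := by
      refine ((((devCond_V τ a).realz_total (0, false)).sub
        ((devCond_U τ a).realz_total (0, false))).add
        ((devCond_V τ a).realz_state (0, false) pend)).congr (fun w => ?_)
      rw [total_VU, occ_sub]
      ring
    have hD : ∀ t : ZMod p, Realz (occ a (fun u => ind (t + (u.map τ).sum = 0) -
        ind (t + τ a + (u.map τ).sum = 0))) := by
      intro t
      refine realz_shift (List.replicate (t * (τ a)⁻¹).val a) hD0 (fun w => ?_)
      rw [List.map_append, List.sum_append, sum_replicate_letter, ZMod.natCast_zmod_val,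
        mul_assoc, inv_mul_cancel₀ ha, mul_one]
      congr 1
      exact ind_congr (by rw [← add_assoc, add_comm (τ a) t])
    have hE : ∀ j : ℕ, Realz (occ a (fun u => ind (s + (u.map τ).sum = 0) -
        ind (s + j * τ a + (u.map τ).sum = 0))) := by
      intro j
      induction j with
      | zero =>
        refine (Realz.const 0).congr (fun w => ?_)
        rw [occ_congr (g := fun _ => (0 : ℤ) * 1) (fun u => by simp) w, occ_smul, zero_mul]
      | succ j ih =>
        refine (ih.add (hD (s + j * τ a))).congr (fun w => ?_)
        rw [← occ_add]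
        refine occ_congr (fun u => ?_) w
        have : s + ((j + 1 : ℕ) : ZMod p) * τ a = s + j * τ a + τ a := by
          push_cast
          ring
        rw [this]
        ring
    have hF : ∀ t : ZMod p, Realz (occ a (fun u => ind (s + (u.map τ).sum = 0) -
        ind (t + (u.map τ).sum = 0))) := by
      intro t
      refine (hE ((t - s) * (τ a)⁻¹).val).congr (fun w => occ_congr (fun u => ?_) w)
      rw [ZMod.natCast_zmod_val, mul_assoc, inv_mul_cancel₀ ha, mul_one, add_sub_cancel]
    apply Realz.of_mul (r := (p : ℤ)) (by exact_mod_cast (Fact.out : p.Prime).ne_zero)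
    refine ((Realz.sum Finset.univ (fun t _ => hF t)).add (realz_count a)).congr (fun w => ?_)
    rw [← occ_sum, ← occ_smul, ← occ_add]
    refine occ_congr (fun u => ?_) w
    rw [Finset.sum_sub_distrib, Finset.sum_const, Finset.card_univ, ZMod.card]
    have h1 : ∑ t : ZMod p, ind (t + (u.map τ).sum = 0) = 1 := by
      rw [Finset.sum_eq_single (-(u.map τ).sum)]
      · exact ind_true (by ring)
      · intro t _ ht
        exact ind_false (fun h => ht (eq_neg_of_add_eq_zero_left h))
      · simp
    rw [h1]
    simp

/-- The key identity for two independent linear conditions. -/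
theorem ind_two (x y : ZMod p) (R : Prop) :
    (p : ℤ) * ind (x = 0 ∧ y = 0 ∧ R) =
      ∑ j : ZMod p, ind (x + j * y = 0 ∧ R) + ind (y = 0 ∧ R) - ind R := by
  classical
  by_cases hR : R
  · by_cases hy : y = 0
    · have h1 : ∀ j : ZMod p, ind (x + j * y = 0 ∧ R) = ind (x = 0) := by
        intro j
        exact ind_congr (by rw [hy, mul_zero, add_zero]; exact ⟨fun h => h.1, fun h => ⟨h, hR⟩⟩)
      rw [Finset.sum_congr rfl (fun j _ => h1 j), Finset.sum_const, Finset.card_univ, ZMod.card,
        ind_true (P := y = 0 ∧ R) ⟨hy, hR⟩, ind_true hR,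
        ind_congr (Q := x = 0) ⟨fun h => h.1, fun h => ⟨h, hy, hR⟩⟩]
      simp
    · rw [ind_false (P := x = 0 ∧ y = 0 ∧ R) (fun h => hy h.2.1),
        ind_false (P := y = 0 ∧ R) (fun h => hy h.1), ind_true hR,
        Finset.sum_eq_single (-x * y⁻¹)]
      · rw [ind_true]
        · ring
        · refine ⟨?_, hR⟩
          rw [mul_assoc, inv_mul_cancel₀ hy]
          ring
      · intro j _ hj
        apply ind_false
        rintro ⟨h, -⟩
        apply hj
        field_simp
        linear_combination h
      · simp
  · rw [ind_false (P := x = 0 ∧ y = 0 ∧ R) (fun h => hR h.2.2),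
      ind_false (P := y = 0 ∧ R) (fun h => hR h.2), ind_false hR,
      Finset.sum_eq_zero (fun j _ => ind_false (fun h => hR h.2))]
    simp

/-- Occurrences of `a` where a list of affine conditions on the prefix holds. -/
theorem realz_conds (a : α) : ∀ (n : ℕ) (L : List ((α → ZMod p) × ZMod p)), L.length ≤ n →
    Realz (occ a (fun u => ind (∀ x ∈ L, x.2 + (u.map x.1).sum = 0))) := by
  intro n
  induction n with
  | zero =>
    intro L hL
    have : L = [] := List.length_eq_zero_iff.mp (by omega)
    subst this
    refine (realz_count a).congr (fun w => occ_congr (fun u => ?_) w)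
    exact ind_true (by simp)
  | succ n ih =>
    intro L hL
    rcases L with _ | ⟨x, L⟩
    · exact ih [] (by simp)
    rcases L with _ | ⟨y, L⟩
    · refine (realz_cyc x.1 a x.2).congr (fun w => occ_congr (fun u => ?_) w)
      exact ind_congr (by simp)
    · simp only [List.length_cons] at hL
      apply Realz.of_mul (r := (p : ℤ)) (by exact_mod_cast (Fact.out : p.Prime).ne_zero)
      have h1 : ∀ j : ZMod p, Realz (occ a (fun u => ind (∀ z ∈ ((fun b => x.1 b + j * y.1 b,
          x.2 + j * y.2) : (α → ZMod p) × ZMod p) :: L, z.2 + (u.map z.1).sum = 0))) :=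
        fun j => ih _ (by simp only [List.length_cons]; omega)
      have h2 := ih (y :: L) (by simp only [List.length_cons]; omega)
      have h3 := ih L (by omega)
      refine (((Realz.sum Finset.univ (fun j _ => h1 j)).add h2).sub h3).congr (fun w => ?_)
      rw [← occ_sum, ← occ_add, ← occ_sub, ← occ_smul]
      refine occ_congr (fun u => ?_) w
      have h4 := ind_two (x.2 + (u.map x.1).sum) (y.2 + (u.map y.1).sum)
        (∀ z ∈ L, z.2 + (u.map z.1).sum = 0)
      have h5 : ∀ j : ZMod p, (u.map (fun b => x.1 b + j * y.1 b)).sum =
          (u.map x.1).sum + j * (u.map y.1).sum := by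
        intro j
        rw [List.sum_map_add, List.sum_map_mul_left]
      simp only [List.forall_mem_cons]
      rw [h4]
      congr 2
      refine Finset.sum_congr rfl (fun j _ => ind_congr ?_)
      rw [h5]
      constructor
      · rintro ⟨h6, h7⟩
        exact ⟨by linear_combination h6, h7⟩
      · rintro ⟨h6, h7⟩
        exact ⟨by linear_combination h6, h7⟩

end Cyc

section Elem

variable [Finite α]

theorem eq_iff_dual {p : ℕ} [Fact p.Prime] {V : Type} [AddCommGroup V] [Module (ZMod p) V]
    (v w : V) : v = w ↔ ∀ l : Module.Dual (ZMod p) V, l v = l w := by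
  constructor
  · rintro rfl l
    rfl
  · intro h
    rw [← sub_eq_zero, ← Module.forall_dual_apply_eq_zero_iff (ZMod p)]
    intro l
    rw [map_sub, h, sub_self]

theorem realz_elem (p : ℕ) [Fact p.Prime] {V : Type} [AddCommGroup V] [Module (ZMod p) V]
    [Finite V] (T : α → V) (a : α) (v : V) :
    Realz (occ a (fun u => ind ((u.map T).sum = v))) := by
  classical
  haveI : Finite (Module.Dual (ZMod p) V) :=
    Finite.of_injective (fun l : Module.Dual (ZMod p) V => (l : V → ZMod p))
      DFunLike.coe_injective
  haveI := Fintype.ofFinite (Module.Dual (ZMod p) V)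
  let L : List ((α → ZMod p) × ZMod p) :=
    (Finset.univ : Finset (Module.Dual (ZMod p) V)).toList.map
      (fun l => (fun b => l (T b), - l v))
  refine (realz_conds a L.length L le_rfl).congr (fun w => occ_congr (fun u => ind_congr ?_) w)
  rw [eq_iff_dual (p := p)]
  have hsum : ∀ l : Module.Dual (ZMod p) V, (u.map (fun b => l (T b))).sum = l (u.map T).sum := by
    intro l
    rw [map_list_sum, List.map_map]
    rfl
  constructor
  · intro h x hx
    simp only [L, List.mem_map, Finset.mem_toList, Finset.mem_univ, true_and] at hx
    obtain ⟨l, rfl⟩ := hx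
    show - l v + (u.map (fun b => l (T b))).sum = 0
    rw [hsum, h l]
    ring
  · intro h l
    have := h (fun b => l (T b), - l v)
      (List.mem_map.mpr ⟨l, Finset.mem_toList.mpr (Finset.mem_univ _), rfl⟩)
    simp only at this
    rw [hsum] at this
    linear_combination this

theorem rec_elem_sum (p : ℕ) [Fact p.Prime] {V : Type} [AddCommGroup V] [Module (ZMod p) V]
    [Finite V] (T : α → V) (v : V) : Rec 1 (fun w => (w.map T).sum = v) := by
  classical
  haveI : NeZero p := ⟨(Fact.out : p.Prime).ne_zero⟩
  haveI : Finite (Module.Dual (ZMod p) V) :=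
    Finite.of_injective (fun l : Module.Dual (ZMod p) V => (l : V → ZMod p))
      DFunLike.coe_injective
  have hsum : ∀ (l : Module.Dual (ZMod p) V) (u : List α),
      (u.map (fun b => l (T b))).sum = l (u.map T).sum := by
    intro l u
    rw [map_list_sum, List.map_map]
    rfl
  by_cases hα : Nonempty α
  · obtain ⟨a⟩ := hα
    have h1 : ∀ l : Module.Dual (ZMod p) V, Rec 1 (fun w : List α => l (w.map T).sum = l v) := by
      intro l
      have := (devCond_E (fun b => l (T b)) a).realz_state (0, false)
        (fun s => ind (s.1 = l v)) 2 (by norm_num) 1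
      refine this.congr (fun w => ?_)
      beta_reduce
      rw [run_fst, hsum]
      by_cases h : l (w.map T).sum = l v
      · rw [ind_true h]
        simp [h]
      · rw [ind_false h]
        simp [h]
    exact (Rec.forall_fin h1).congr (fun w => eq_iff_dual (p := p) _ _)
  · refine (Rec.const 1 (0 = v)).congr (fun w => ?_)
    rcases w with _ | ⟨a, w⟩
    · rfl
    · exact absurd ⟨a⟩ hα

end Elem

end Vale.Agent.P329
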