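import Vale.Agent.P329.Hub

/-! Integer-valued functionals on words all of whose residue classes have star height ≤ 1. -/

namespace Vale.Agent.P329

variable {α : Type}

/-- All residue classes of the functional `X` are languages of generalized star height ≤ 1. -/
def Realz (X : List α → ℤ) : Prop :=
  ∀ (M : ℕ), 0 < M → ∀ c : ZMod M, Rec 1 (fun w => ((X w : ℤ) : ZMod M) = c)

theorem Realz.congr {X Y : List α → ℤ} (h : Realz X) (e : ∀ w, Y w = X w) : Realz Y := by
  have : Y = X := funext e
  rw [this]
  exact h

theorem Realz.const (m : ℤ) : Realz (fun _ : List α => m) := fun _ _ _ => Rec.const 1 _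

/-- A language that factors through residues of finitely many realizable functionals has
star height at most one. -/
theorem Realz.factor {I : Type*} [Finite I] {X : I → List α → ℤ} (hX : ∀ i, Realz (X i))
    {M : ℕ} (hM : 0 < M) {D : List α → Prop}
    (hD : ∀ w w', (∀ i, ((X i w : ℤ) : ZMod M) = X i w') → (D w → D w')) : Rec 1 D := by
  classical
  haveI : NeZero M := ⟨hM.ne'⟩
  have h1 : ∀ k : I → ZMod M, Rec 1 (fun w : List α =>
      (∃ w', D w' ∧ ∀ i, ((X i w' : ℤ) : ZMod M) = k i) ∧
        ∀ i, ((X i w : ℤ) : ZMod M) = k i) := fun k =>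
    (Rec.const 1 _).and (Rec.forall_fin (fun i => hX i M hM (k i)))
  haveI := Fintype.ofFinite I
  refine (Rec.exists_fin h1).congr (fun w => ?_)
  constructor
  · intro hw
    exact ⟨fun i => ((X i w : ℤ) : ZMod M), ⟨w, hw, fun i => rfl⟩, fun i => rfl⟩
  · rintro ⟨k, ⟨w', hw', h2⟩, h3⟩
    exact hD w' w (fun i => (h2 i).trans (h3 i).symm) hw'

theorem Realz.add {X Y : List α → ℤ} (hX : Realz X) (hY : Realz Y) :
    Realz (fun w => X w + Y w) := by
  intro M hM c
  refine Realz.factor (I := Bool) (X := fun b => if b then X else Y)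
    (fun b => by cases b <;> simpa) hM ?_
  intro w w' h h1
  have h2 := h true
  have h3 := h false
  simp only [if_true, Bool.false_eq_true, if_false] at h2 h3
  rw [← h1]
  push_cast
  rw [h2, h3]

theorem Realz.mul {X Y : List α → ℤ} (hX : Realz X) (hY : Realz Y) :
    Realz (fun w => X w * Y w) := by
  intro M hM c
  refine Realz.factor (I := Bool) (X := fun b => if b then X else Y)
    (fun b => by cases b <;> simpa) hM ?_
  intro w w' h h1
  have h2 := h true
  have h3 := h false
  simp only [if_true, Bool.false_eq_true, if_false] at h2 h3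
  rw [← h1]
  push_cast
  rw [h2, h3]

theorem Realz.smul {X : List α → ℤ} (m : ℤ) (hX : Realz X) : Realz (fun w => m * X w) :=
  (Realz.const m).mul hX

theorem Realz.neg {X : List α → ℤ} (hX : Realz X) : Realz (fun w => - X w) :=
  (hX.smul (-1)).congr (fun w => by ring)

theorem Realz.sub {X Y : List α → ℤ} (hX : Realz X) (hY : Realz Y) :
    Realz (fun w => X w - Y w) :=
  (hX.add hY.neg).congr (fun w => by ring)

theorem Realz.sum {ι : Type*} (s : Finset ι) {X : ι → List α → ℤ} (h : ∀ i ∈ s, Realz (X i)) :
    Realz (fun w => ∑ i ∈ s, X i w) := by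
  classical
  induction s using Finset.induction_on with
  | empty => exact (Realz.const 0).congr (fun w => by simp)
  | insert a s ha ih =>
    refine ((h a (Finset.mem_insert_self a s)).add
      (ih (fun i hi => h i (Finset.mem_insert_of_mem hi)))).congr (fun w => ?_)
    rw [Finset.sum_insert ha]

/-- Division: if a nonzero multiple is realizable, so is the functional. -/
theorem Realz.of_mul {X : List α → ℤ} {r : ℤ} (hr : r ≠ 0) (h : Realz (fun w => r * X w)) :
    Realz X := by
  intro M hM c
  haveI : NeZero M := ⟨hM.ne'⟩
  obtain ⟨m, rfl⟩ : ∃ m : ℤ, (m : ZMod M) = c := ⟨c.val, by simp⟩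
  have hr' : 0 < r.natAbs := Int.natAbs_pos.mpr hr
  refine (h (r.natAbs * M) (by positivity) ((r * m : ℤ) : ZMod (r.natAbs * M))).congr
    (fun w => ?_)
  rw [ZMod.intCast_eq_intCast_iff_dvd_sub, ZMod.intCast_eq_intCast_iff_dvd_sub, ← mul_sub]
  push_cast
  constructor
  · intro h1
    rw [← abs_dvd, abs_mul, abs_abs, ← abs_mul, abs_dvd]
    exact mul_dvd_mul_left r h1
  · intro h1
    rw [← abs_dvd, abs_mul, abs_abs, ← abs_mul, abs_dvd] at h1
    exact (mul_dvd_mul_iff_left hr).mp h1

theorem Realz.lshift {X : List α → ℤ} (hX : Realz X) (u : List α) :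
    Realz (fun w => X (u ++ w)) := fun M hM c => (hX M hM c).lquot u

/-! ### Sums over occurrences of a letter -/

open Classical in
/-- `occ a f w` is the sum of `f (w₁⋯w_{l-1})` over the occurrences `w_l = a` of `a`. -/
noncomputable def occ (a : α) (f : List α → ℤ) : List α → ℤ :=
  fun w => ∑ l ∈ Finset.range w.length, if w[l]? = some a then f (w.take l) else 0

theorem occ_nil (a : α) (f : List α → ℤ) : occ a f [] = 0 := by
  simp [occ]

open Classical in
theorem occ_snoc (a : α) (f : List α → ℤ) (w : List α) (b : α) :
    occ a f (w ++ [b]) = occ a f w + if b = a then f w else 0 := by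
  unfold occ
  rw [List.length_append, List.length_singleton, Finset.sum_range_succ]
  congr 1
  · apply Finset.sum_congr rfl
    intro l hl
    rw [Finset.mem_range] at hl
    rw [List.getElem?_append_left hl, List.take_append_of_le_length hl.le]
  · simp

open Classical in
theorem occ_append (a : α) (f : List α → ℤ) (u w : List α) :
    occ a f (u ++ w) = occ a f u + occ a (fun x => f (u ++ x)) w := by
  induction w using List.reverseRecOn with
  | nil => simp [occ_nil]
  | append_singleton w b ih =>
    rw [← List.append_assoc, occ_snoc, ih, occ_snoc]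
    ring

theorem occ_congr {a : α} {f g : List α → ℤ} (h : ∀ w, f w = g w) (w : List α) :
    occ a f w = occ a g w := by
  have : f = g := funext h
  rw [this]

open Classical in
theorem occ_add (a : α) (f g : List α → ℤ) (w : List α) :
    occ a (fun x => f x + g x) w = occ a f w + occ a g w := by
  induction w using List.reverseRecOn with
  | nil => simp [occ_nil]
  | append_singleton w b ih =>
    rw [occ_snoc, occ_snoc, occ_snoc, ih]
    split_ifs <;> ring

open Classical in
theorem occ_smul (a : α) (m : ℤ) (f : List α → ℤ) (w : List α) :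
    occ a (fun x => m * f x) w = m * occ a f w := by
  induction w using List.reverseRecOn with
  | nil => simp [occ_nil]
  | append_singleton w b ih =>
    rw [occ_snoc, occ_snoc, ih]
    split_ifs <;> ring

theorem occ_sub (a : α) (f g : List α → ℤ) (w : List α) :
    occ a (fun x => f x - g x) w = occ a f w - occ a g w := by
  have h1 := occ_add a f (fun x => (-1) * g x) w
  rw [occ_smul] at h1
  rw [occ_congr (g := fun x => f x + (-1) * g x) (fun x => by ring), h1]
  ring

theorem occ_sum {ι : Type*} (s : Finset ι) (a : α) (f : ι → List α → ℤ) (w : List α) :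
    occ a (fun x => ∑ i ∈ s, f i x) w = ∑ i ∈ s, occ a (f i) w := by
  classical
  induction s using Finset.induction_on with
  | empty =>
    have := occ_smul a 0 (fun _ => 0) w
    simp only [zero_mul] at this
    simpa using this
  | insert i s hi ih =>
    rw [Finset.sum_insert hi, ← ih, ← occ_add]
    exact occ_congr (fun x => by rw [Finset.sum_insert hi]) w

/-! ### Counting devices -/

/-- The automaton that runs `δ` and counts, modulo `M`, the marked transitions. -/
def countDev {T : Type} (δ : T → α → T) (wt : T → α → Bool) (M : ℕ) (s : T × ZMod M) (a : α) :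
    T × ZMod M :=
  (δ s.1 a, s.2 + if wt s.1 a then 1 else 0)

/-- The number of marked transitions along the run of `w` from `t`. -/
def total {T : Type} (δ : T → α → T) (wt : T → α → Bool) : T → List α → ℤ
  | _, [] => 0
  | t, a :: w => (if wt t a then 1 else 0) + total δ wt (δ t a) w

theorem total_snoc {T : Type} (δ : T → α → T) (wt : T → α → Bool) (t : T) (w : List α) (a : α) :
    total δ wt t (w ++ [a]) = total δ wt t w + if wt (w.foldl δ t) a then 1 else 0 := by
  induction w generalizing t with
  | nil =>
    simp only [List.nil_append, total, List.foldl_nil]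
    by_cases h : wt t a = true <;> simp [h]
  | cons b w ih =>
    simp only [List.cons_append, total, ih, List.foldl_cons, add_assoc]
    by_cases h : wt (w.foldl δ (δ t b)) a = true <;> simp [h]

theorem countDev_run {T : Type} (δ : T → α → T) (wt : T → α → Bool) (M : ℕ) (t : T) (c : ZMod M)
    (w : List α) : w.foldl (countDev δ wt M) (t, c) =
      (w.foldl δ t, c + ((total δ wt t w : ℤ) : ZMod M)) := by
  induction w using List.reverseRecOn with
  | nil => simp [total]
  | append_singleton w b ih =>
    rw [List.foldl_append, ih, List.foldl_append, total_snoc]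
    simp only [List.foldl_cons, List.foldl_nil, countDev]
    push_cast
    split_ifs <;> simp [add_assoc]

/-- The condition on a counting device: marked transitions lead to `t0`, and periodic runs
without marked transitions have the period of the input. -/
structure DevCond {T : Type} (δ : T → α → T) (wt : T → α → Bool) (t0 : T) : Prop where
  arrive : ∀ t a, wt t a = true → δ t a = t0
  cyc : ∀ (ζ : ℕ → α) (s : ℕ → T) (n k : ℕ), 1 ≤ n → 1 ≤ k → (∀ i, ζ (i + n) = ζ i) →
    (∀ i, s (i + 1) = δ (s i) (ζ i)) → (∀ i, s (i + k * n) = s i) →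
    (∀ i, wt (s i) (ζ i) = false) → s n = s 0

theorem DevCond.hub {T : Type} {δ : T → α → T} {wt : T → α → Bool} {t0 : T}
    (h : DevCond δ wt t0) {M : ℕ} (hM : 0 < M) : HubCond (countDev δ wt M) (t0, 0) := by
  haveI : NeZero M := ⟨hM.ne'⟩
  intro ζ s n k hn hk hζ hs hper hne
  -- the counter value never wraps around, so it is nondecreasing
  have hstep : ∀ i, (s (i + 1)).2.val = (s i).2.val + if wt (s i).1 (ζ i) then 1 else 0 := by
    intro i
    have h1 := hs i
    by_cases hw : wt (s i).1 (ζ i) = true
    · have h2 : (s (i + 1)).1 = t0 := by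
        rw [h1]
        exact h.arrive _ _ hw
      have h3 : (s (i + 1)).2 = (s i).2 + 1 := by
        rw [h1]
        simp [countDev, hw]
      have h4 : (s i).2 + 1 ≠ 0 := by
        intro h4
        apply hne (i + 1)
        rw [← h3] at h4
        exact Prod.ext h2 h4
      rw [h3, if_pos hw]
      have h5 : (s i).2.val + 1 < M := by
        by_contra h6
        have h7 := ZMod.val_lt (s i).2
        have h8 : (s i).2.val + 1 = M := by omega
        apply h4
        have h9 : (((s i).2.val + 1 : ℕ) : ZMod M) = 0 := by
          rw [h8]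
          simp
        push_cast at h9
        rwa [ZMod.natCast_zmod_val] at h9
      have h10 : (((s i).2.val + 1 : ℕ) : ZMod M) = (s i).2 + 1 := by
        push_cast
        rw [ZMod.natCast_zmod_val]
      rw [← h10, ZMod.val_natCast_of_lt h5]
    · have h3 : (s (i + 1)).2 = (s i).2 := by
        rw [h1]
        simp [countDev, hw]
      rw [h3, if_neg hw, Nat.add_zero]
  have hmono : Monotone (fun i => (s i).2.val) := by
    apply monotone_nat_of_le_succ
    intro i
    rw [hstep]
    omega
  have hkn : 1 ≤ k * n := Nat.mul_pos hk hn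
  have hwt : ∀ i, wt (s i).1 (ζ i) = false := by
    intro i
    by_contra hw
    have hw' : wt (s i).1 (ζ i) = true := by simpa using hw
    have h1 := hstep i
    rw [if_pos hw'] at h1
    have h2 : (s (i + 1)).2.val ≤ (s (i + k * n)).2.val := hmono (by omega)
    rw [hper] at h2
    omega
  have hconst : ∀ i, (s i).2 = (s 0).2 := by
    intro i
    induction i with
    | zero => rfl
    | succ i ih =>
      rw [hs i]
      simp [countDev, hwt i, ih]
  refine Prod.ext ?_ (hconst n)
  exact h.cyc ζ (fun i => (s i).1) n k hn hk hζ (fun i => by rw [hs i]; rfl)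
    (fun i => by rw [hper i]) hwt

theorem DevCond.rec_run {T : Type} [Finite α] [Finite T] {δ : T → α → T} {wt : T → α → Bool}
    {t0 : T} (h : DevCond δ wt t0) (t t' : T) {M : ℕ} (hM : 0 < M) (c : ZMod M) :
    Rec 1 (fun w => w.foldl δ t = t' ∧ ((total δ wt t w : ℤ) : ZMod M) = c) := by
  haveI : NeZero M := ⟨hM.ne'⟩
  refine (rec_one_of_hub (countDev δ wt M) (t0, 0) (h.hub hM) (t, 0) (t', c)).congr
    (fun w => ?_)
  rw [countDev_run, zero_add, Prod.mk.injEq]

theorem DevCond.realz_state {T : Type} [Finite α] [Finite T] {δ : T → α → T}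
    {wt : T → α → Bool} {t0 : T} (h : DevCond δ wt t0) (t : T) (g : T → ℤ) :
    Realz (fun w => g (w.foldl δ t)) := by
  intro M hM c
  have h1 : ∀ t' : T, Rec 1 (fun w : List α => ((g t' : ℤ) : ZMod M) = c ∧
      (w.foldl δ t = t' ∧ ((total δ wt t w : ℤ) : ZMod 1) = 0)) := fun t' =>
    (Rec.const 1 _).and (h.rec_run t t' Nat.one_pos 0)
  refine (Rec.exists_fin h1).congr (fun w => ?_)
  constructor
  · intro h2
    exact ⟨_, h2, rfl, Subsingleton.elim _ _⟩
  · rintro ⟨t', h2, h3, -⟩
    simp only [h3]
    exact h2

theorem DevCond.realz_total {T : Type} [Finite α] [Finite T] {δ : T → α → T}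
    {wt : T → α → Bool} {t0 : T} (h : DevCond δ wt t0) (t : T) :
    Realz (total δ wt t) := by
  intro M hM c
  refine (Rec.exists_fin (fun t' : T => h.rec_run t t' hM c)).congr (fun w => ?_)
  constructor
  · intro h2
    exact ⟨_, rfl, h2⟩
  · rintro ⟨t', -, h2⟩
    exact h2

end Vale.Agent.P329
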