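import Vale.Agent.P329.Defs

/-! Finite groups all of whose recognized languages have generalized star height at most one. -/

namespace Vale.Agent.P329

/-- Every language over a finite alphabet recognized by the group `G` has generalized star
height at most one. -/
def Good (G : Type) [Group G] : Prop :=
  ∀ (α : Type) [Finite α] (σ : α → G) (S : Set G),
    GshLE 1 ({w : List α | (w.map σ).prod ∈ S} : Set (List α))

end Vale.Agent.P329
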