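import Vale.Agent.P329.Good
import Vale.Agent.P329.Closure

/-! Closure properties of the class of good groups. -/

namespace Vale.Agent.P329

theorem Good.of_injective {G H : Type} [Group G] [Group H] (f : H →* G)
    (hf : Function.Injective f) (hG : Good G) : Good H := by
  intro α _ σ S
  have h := hG α (fun a => f (σ a)) (f '' S)
  have e : ∀ w : List α, (w.map (fun a => f (σ a))).prod = f (w.map σ).prod := by
    intro w
    rw [map_list_prod, List.map_map]
    rfl
  have h' : Rec 1 (fun w : List α => (w.map (fun a => f (σ a))).prod ∈ f '' S) := h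
  refine h'.congr (fun w => ?_)
  rw [e]
  constructor
  · intro hw
    exact ⟨_, hw, rfl⟩
  · rintro ⟨x, hx, hx'⟩
    rw [← hf hx']
    exact hx

theorem Good.of_surjective {G H : Type} [Group G] [Group H] (f : G →* H)
    (hf : Function.Surjective f) (hG : Good G) : Good H := by
  intro α _ σ S
  choose τ hτ using fun a => hf (σ a)
  have h := hG α τ (f ⁻¹' S)
  have h' : Rec 1 (fun w : List α => (w.map τ).prod ∈ f ⁻¹' S) := h
  refine h'.congr (fun w => ?_)
  have e : f (w.map τ).prod = (w.map σ).prod := by
    rw [map_list_prod, List.map_map]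
    congr 1
    exact List.map_congr_left (fun a _ => hτ a)
  rw [Set.mem_preimage, e]

theorem Good.prod {G H : Type} [Group G] [Group H] [Finite G] [Finite H] (hG : Good G)
    (hH : Good H) : Good (G × H) := by
  intro α _ σ S
  have h : ∀ x : G × H, Rec 1 (fun w : List α => x ∈ S ∧
      ((w.map (fun a => (σ a).1)).prod = x.1 ∧ (w.map (fun a => (σ a).2)).prod = x.2)) := by
    intro x
    have h1 : Rec 1 (fun w : List α => (w.map (fun a => (σ a).1)).prod ∈ ({x.1} : Set G)) :=
      hG α (fun a => (σ a).1) {x.1}
    have h2 : Rec 1 (fun w : List α => (w.map (fun a => (σ a).2)).prod ∈ ({x.2} : Set H)) :=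
      hH α (fun a => (σ a).2) {x.2}
    exact (Rec.const 1 _).and (h1.and h2)
  refine (Rec.exists_fin h).congr (fun w => ?_)
  have e1 : ((w.map σ).prod).1 = (w.map (fun a => (σ a).1)).prod := by
    have := map_list_prod (MonoidHom.fst G H) (w.map σ)
    rw [List.map_map] at this
    exact this
  have e2 : ((w.map σ).prod).2 = (w.map (fun a => (σ a).2)).prod := by
    have := map_list_prod (MonoidHom.snd G H) (w.map σ)
    rw [List.map_map] at this
    exact this
  constructor
  · intro hw
    exact ⟨(w.map σ).prod, hw, e1.symm, e2.symm⟩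
  · rintro ⟨x, hx, h1, h2⟩
    have : (w.map σ).prod = x := Prod.ext (e1.trans h1) (e2.trans h2)
    show (w.map σ).prod ∈ S
    rw [this]
    exact hx

end Vale.Agent.P329
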