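import Vale.Agent.P329.Schutz

/-! The hub theorem. -/

namespace Vale.Agent.P329

/-- A map without nontrivial cycles has eventually constant iterates. -/
theorem iterate_card_eq {T : Type} [Finite T] (f : T → T)
    (hf : ∀ (x : T) (k : ℕ), 1 ≤ k → f^[k] x = x → f x = x) :
    f^[Nat.card T + 1] = f^[Nat.card T] := by
  funext x
  have h1 : ¬ Function.Injective (fun i : Fin (Nat.card T + 1) => f^[i.1] x) := by
    intro h
    have := Nat.card_le_card_of_injective _ h
    simp at this
  simp only [Function.Injective, not_forall] at h1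
  obtain ⟨i, j, hij, hne⟩ := h1
  wlog hlt : i.1 < j.1 generalizing i j with H
  · exact H j i hij.symm (fun h => hne h.symm)
      (lt_of_le_of_ne (not_lt.mp hlt) (fun h => hne (Fin.ext h.symm)))
  have hy : f^[j.1 - i.1] (f^[i.1] x) = f^[i.1] x := by
    rw [← Function.iterate_add_apply, Nat.sub_add_cancel hlt.le]
    exact hij.symm
  have hfix : f (f^[i.1] x) = f^[i.1] x := hf _ _ (by omega) hy
  have hK : ∀ m, i.1 ≤ m → f^[m] x = f^[i.1] x := by
    intro m hm
    obtain ⟨d, rfl⟩ := Nat.exists_eq_add_of_le hm
    rw [Nat.add_comm, Function.iterate_add_apply]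
    exact Function.iterate_fixed hfix d
  have hi := i.2
  exact (hK _ (by omega)).trans (hK _ (by omega)).symm

/-- Counter-free automata accept star-free languages. -/
theorem rec_zero_of_counterFree {α T : Type} [Finite α] [Finite T] (E : T → α → T)
    (hcf : ∀ (w : List α) (x : T) (k : ℕ), 1 ≤ k → (fun y => w.foldl E y)^[k] x = x →
      w.foldl E x = x) (x y : T) :
    Rec 0 (fun w : List α => w.foldl E x = y) := by
  classical
  haveI : Finite (Function.End T) := inferInstanceAs (Finite (T → T))
  haveI : Finite (Function.End T)ᵐᵒᵖ := Finite.of_equiv _ MulOpposite.opEquiv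
  let φ : α → (Function.End T)ᵐᵒᵖ := fun a => MulOpposite.op (fun t => E t a)
  have hφ : ∀ (w : List α), (w.map φ).prod = MulOpposite.op (fun t => w.foldl E t) := by
    intro w
    induction w with
    | nil => rfl
    | cons a w ih =>
      rw [List.map_cons, List.prod_cons, ih]
      rfl
  have hpow : ∀ (f : T → T) (k : ℕ) (F : (Function.End T)ᵐᵒᵖ), F = MulOpposite.op f →
      F ^ k = MulOpposite.op (f^[k]) := by
    intro f k F hF
    induction k with
    | zero => rfl
    | succ k ih =>
      rw [pow_succ', ih, hF]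
      rfl
  have h1 := rec_zero_of_aperiodic' φ (by
    intro w
    refine ⟨Nat.card T, ?_⟩
    rw [hpow _ _ _ (hφ w), hpow _ _ _ (hφ w), iterate_card_eq]
    intro x k hk h
    exact hcf w x k hk h)
  refine (Rec.exists_fin (D := fun (m : (Function.End T)ᵐᵒᵖ) (w : List α) =>
    (w.map φ).prod = m ∧ (MulOpposite.unop m : T → T) x = y)
    (fun m => (h1 m).and (Rec.const 0 _))).congr (fun w => ?_)
  constructor
  · intro h
    exact ⟨(w.map φ).prod, rfl, by rw [hφ]; exact h⟩
  · rintro ⟨m, hm, h⟩
    rw [← hm, hφ] at h
    exact h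

open Classical in
/-- The automaton that dies when it has to leave the state `h`. -/
noncomputable def stopAt {α Q : Type} (δ : Q → α → Q) (h : Q) (x : Option Q) (a : α) :
    Option Q :=
  match x with
  | none => none
  | some q => if q = h then none else some (δ q a)

theorem foldl_stopAt_none {α Q : Type} (δ : Q → α → Q) (h : Q) (w : List α) :
    w.foldl (stopAt δ h) none = none := by
  induction w with
  | nil => rfl
  | cons a w ih => exact ih

/-- The hub condition, for bi-infinite periodic runs: a periodic run of period a multiple of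
the period of the input and avoiding `h` already has the period of the input. -/
def HubCond {α Q : Type} (δ : Q → α → Q) (h : Q) : Prop :=
  ∀ (ζ : ℕ → α) (s : ℕ → Q) (n k : ℕ), 1 ≤ n → 1 ≤ k → (∀ i, ζ (i + n) = ζ i) →
    (∀ i, s (i + 1) = δ (s i) (ζ i)) → (∀ i, s (i + k * n) = s i) → (∀ i, s i ≠ h) → s n = s 0

/-- Reading a periodic input. -/
theorem run_periodic {α T : Type} (E : T → α → T) (w : List α) (hw : w ≠ []) (x : T) :
    ∃ (ζ : ℕ → α) (S : ℕ → T), (∀ i, ζ (i + w.length) = ζ i) ∧ S 0 = x ∧
      (∀ i, S (i + 1) = E (S i) (ζ i)) ∧ (∀ j, S (j * w.length) = (fun y => w.foldl E y)^[j] x) := by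
  have hn : 0 < w.length := List.length_pos_of_ne_nil hw
  let ζ : ℕ → α := fun i => w[i % w.length]'(Nat.mod_lt _ hn)
  let S : ℕ → T := fun i => Nat.rec x (fun i t => E t (ζ i)) i
  have hS0 : S 0 = x := rfl
  have hS : ∀ i, S (i + 1) = E (S i) (ζ i) := fun i => rfl
  have hζ : ∀ j l, (hl : l < w.length) → ζ (j * w.length + l) = w[l] := by
    intro j l hl
    simp only [ζ]
    congr 1
    rw [Nat.mul_comm, Nat.mul_add_mod, Nat.mod_eq_of_lt hl]
  have key : ∀ j l, l ≤ w.length → S (j * w.length + l) = (w.take l).foldl E (S (j * w.length)) := by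
    intro j l
    induction l with
    | zero => intro _; rfl
    | succ l ih =>
      intro hl
      rw [← Nat.add_assoc, hS, ih (by omega), hζ j l (by omega), List.take_add_one,
        List.foldl_append, List.getElem?_eq_getElem (by omega : l < w.length)]
      rfl
  refine ⟨ζ, S, ?_, hS0, hS, ?_⟩
  · intro i
    simp only [ζ, Nat.add_mod_right]
  · intro j
    induction j with
    | zero => simp [hS0]
    | succ j ih =>
      rw [Nat.succ_mul, key j _ le_rfl, List.take_length, ih, Function.iterate_succ_apply']

theorem stopAt_counterFree {α Q : Type} (δ : Q → α → Q) (h : Q) (hc : HubCond δ h)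
    (w : List α) (x : Option Q) (k : ℕ) (hk : 1 ≤ k)
    (hx : (fun y => w.foldl (stopAt δ h) y)^[k] x = x) : w.foldl (stopAt δ h) x = x := by
  rcases x with _ | q
  · exact foldl_stopAt_none δ h w
  by_cases hw : w = []
  · rw [hw]
    rfl
  have hn : 0 < w.length := List.length_pos_of_ne_nil hw
  obtain ⟨ζ, S, hζ, hS0, hS, hSj⟩ := run_periodic (stopAt δ h) w hw (some q)
  have hζk : ∀ i, ζ (i + k * w.length) = ζ i := by
    intro i
    clear hx hk hSj
    induction k with
    | zero => simp
    | succ k ih => rw [Nat.succ_mul, ← Nat.add_assoc, hζ, ih]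
  have hper : ∀ i, S (i + k * w.length) = S i := by
    intro i
    induction i with
    | zero => rw [Nat.zero_add, hSj, hx, hS0]
    | succ i ih =>
      rw [Nat.succ_add, hS, ih, hζk, hS]
  have hmul : ∀ j, S (j * (k * w.length)) = some q := by
    intro j
    induction j with
    | zero => rw [Nat.zero_mul, hS0]
    | succ j ih => rw [Nat.succ_mul, hper, ih]
  have hnone : ∀ i, S i ≠ none := by
    intro i hi
    have hmono : ∀ d, S (i + d) = none := by
      intro d
      induction d with
      | zero => exact hi
      | succ d ih =>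
        rw [← Nat.add_assoc, hS, ih]
        rfl
    have h1 : i ≤ i * (k * w.length) := Nat.le_mul_of_pos_right i (by positivity)
    obtain ⟨d, hd⟩ := Nat.exists_eq_add_of_le h1
    have h2 := hmono d
    rw [← hd, hmul] at h2
    cases h2
  have hsome : ∀ i, ∃ s, S i = some s := fun i => Option.ne_none_iff_exists'.mp (hnone i)
  choose s hs using hsome
  have hne : ∀ i, s i ≠ h := by
    intro i hi
    apply hnone (i + 1)
    rw [hS, hs, hi]
    simp [stopAt]
  have hstep : ∀ i, s (i + 1) = δ (s i) (ζ i) := by
    intro i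
    have h1 : some (s (i + 1)) = stopAt δ h (some (s i)) (ζ i) := by
      rw [← hs, ← hs, hS]
    simp only [stopAt, if_neg (hne i)] at h1
    exact Option.some_injective _ h1
  have hsper : ∀ i, s (i + k * w.length) = s i := by
    intro i
    apply Option.some_injective
    rw [← hs, ← hs, hper]
  have hfin := hc ζ s w.length k hn hk hζ hstep hsper hne
  have h1 := hSj 1
  rw [Nat.one_mul, Function.iterate_one, hs, hfin, ← hs, hS0] at h1
  exact h1.symm

theorem foldl_of_stopAt {α Q : Type} (δ : Q → α → Q) (h : Q) (w : List α) (x y : Q)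
    (hxy : w.foldl (stopAt δ h) (some x) = some y) : w.foldl δ x = y := by
  induction w generalizing x with
  | nil => simpa using hxy
  | cons a w ih =>
    rw [List.foldl_cons] at hxy ⊢
    by_cases hx : x = h
    · simp only [stopAt, if_pos hx, foldl_stopAt_none] at hxy
      cases hxy
    · simp only [stopAt, if_neg hx] at hxy
      exact ih _ hxy

theorem first_hit {α Q : Type} (δ : Q → α → Q) (h : Q) (w : List α) (x : Q) :
    w.foldl (stopAt δ h) (some x) = some (w.foldl δ x) ∨
      ∃ u v, w = u ++ v ∧ u.foldl (stopAt δ h) (some x) = some h := by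
  induction w generalizing x with
  | nil => left; rfl
  | cons a w ih =>
    by_cases hx : x = h
    · right
      exact ⟨[], a :: w, rfl, by rw [hx]; rfl⟩
    · have h1 : stopAt δ h (some x) a = some (δ x a) := by simp [stopAt, hx]
      rcases ih (δ x a) with h2 | ⟨u, v, rfl, h2⟩
      · left
        rw [List.foldl_cons, List.foldl_cons, h1]
        exact h2
      · right
        refine ⟨a :: u, v, rfl, ?_⟩
        rw [List.foldl_cons, h1]
        exact h2

/-- **Hub theorem**. -/
theorem rec_one_of_hub {α Q : Type} [Finite α] [Finite Q] (δ : Q → α → Q) (h : Q)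
    (hc : HubCond δ h) (x y : Q) : Rec 1 (fun w : List α => w.foldl δ x = y) := by
  classical
  have hA : ∀ x y : Q, Rec 0 (fun w : List α => w.foldl (stopAt δ h) (some x) = some y) :=
    fun x y => rec_zero_of_counterFree (stopAt δ h)
      (fun w x k hk hx => stopAt_counterFree δ h hc w x k hk hx) (some x) (some y)
  have hB : ∀ y : Q, Rec 0 (fun w : List α => ∃ a : α, ∃ u v, w = u ++ v ∧ u = [a] ∧
      v.foldl (stopAt δ h) (some (δ h a)) = some y) := fun y =>
    Rec.exists_fin (fun a => (Rec.single 0 a).cat (hA (δ h a) y))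
  have hT : Rec 0 (fun w : List α => (w = [] ∧ h = y) ∨ ∃ a : α, ∃ u v, w = u ++ v ∧ u = [a] ∧
      v.foldl (stopAt δ h) (some (δ h a)) = some y) :=
    ((Rec.nil 0).and (Rec.const 0 _)).or (hB y)
  have hL : Rec 1 (fun w : List α => ∃ u v, w = u ++ v ∧
      (∃ L : List (List α), u = L.flatten ∧ ∀ z ∈ L, ∃ a : α, ∃ u v, z = u ++ v ∧ u = [a] ∧
        v.foldl (stopAt δ h) (some (δ h a)) = some h) ∧
      ((v = [] ∧ h = y) ∨ ∃ a : α, ∃ u' v', v = u' ++ v' ∧ u' = [a] ∧
        v'.foldl (stopAt δ h) (some (δ h a)) = some y)) :=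
    (hB h).star.cat (hT.mono (Nat.zero_le 1))
  have hLh : ∀ w : List α, w.foldl δ h = y ↔ (∃ u v, w = u ++ v ∧
      (∃ L : List (List α), u = L.flatten ∧ ∀ z ∈ L, ∃ a : α, ∃ u v, z = u ++ v ∧ u = [a] ∧
        v.foldl (stopAt δ h) (some (δ h a)) = some h) ∧
      ((v = [] ∧ h = y) ∨ ∃ a : α, ∃ u' v', v = u' ++ v' ∧ u' = [a] ∧
        v'.foldl (stopAt δ h) (some (δ h a)) = some y)) := by
    intro w
    constructor
    · intro hw
      induction hlen : w.length using Nat.strong_induction_on generalizing w with
      | _ n ih =>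
        rcases w with _ | ⟨a, w⟩
        · exact ⟨[], [], rfl, ⟨[], rfl, by simp⟩, Or.inl ⟨rfl, hw⟩⟩
        · rcases first_hit δ h w (δ h a) with h1 | ⟨u, v, rfl, h1⟩
          · refine ⟨[], a :: w, rfl, ⟨[], rfl, by simp⟩, Or.inr ⟨a, [a], w, rfl, rfl, ?_⟩⟩
            rw [h1]
            exact congrArg some hw
          · have h2 : u.foldl δ (δ h a) = h := foldl_of_stopAt δ h u _ _ h1
            have h3 : v.foldl δ h = y := by
              rw [List.foldl_cons, List.foldl_append, h2] at hw
              exact hw
            obtain ⟨u', v', rfl, ⟨L, rfl, hL⟩, h5⟩ := ih v.length (by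
              simp only [List.length_cons, List.length_append] at hlen
              omega) v h3 rfl
            refine ⟨((a :: u) :: L).flatten, v', by simp, ⟨(a :: u) :: L, rfl, ?_⟩, h5⟩
            intro z hz
            rcases List.mem_cons.mp hz with rfl | hz
            · exact ⟨a, [a], u, rfl, rfl, h1⟩
            · exact hL z hz
    · rintro ⟨u, v, rfl, ⟨L, rfl, hL⟩, hv⟩
      rw [List.foldl_append]
      have h1 : L.flatten.foldl δ h = h := by
        clear hv
        induction L with
        | nil => rfl
        | cons z L ih =>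
          obtain ⟨a, u, v, rfl, rfl, h2⟩ := hL z (by simp)
          rw [List.flatten_cons, List.foldl_append]
          have h3 : ([a] ++ v).foldl δ h = h := by
            rw [List.foldl_append]
            exact foldl_of_stopAt δ h v _ _ h2
          rw [h3]
          exact ih (fun z hz => hL z (by simp [hz]))
      rw [h1]
      rcases hv with ⟨rfl, rfl⟩ | ⟨a, u', v', rfl, rfl, h2⟩
      · rfl
      · rw [List.foldl_append]
        exact foldl_of_stopAt δ h v' _ _ h2
  have hL' : Rec 1 (fun w : List α => w.foldl δ h = y) := hL.congr hLh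
  refine (((hA x y).mono (Nat.zero_le 1)).or (((hA x h).mono (Nat.zero_le 1)).cat hL')).congr
    (fun w => ?_)
  constructor
  · intro hw
    rcases first_hit δ h w x with h1 | ⟨u, v, rfl, h1⟩
    · left
      rw [h1, hw]
    · right
      refine ⟨u, v, rfl, h1, ?_⟩
      rw [List.foldl_append, foldl_of_stopAt δ h u _ _ h1] at hw
      exact hw
  · rintro (h1 | ⟨u, v, rfl, h1, h2⟩)
    · exact foldl_of_stopAt δ h w _ _ h1
    · rw [List.foldl_append, foldl_of_stopAt δ h u _ _ h1]
      exact h2

end Vale.Agent.P329
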