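import Vale.Agent.P329.Hub

/-! Permutation groups generated by permutations that are increasing away from a hub. -/

namespace Vale.Agent.P329

variable {α : Type}

theorem rec_of_perm_hub {X : Type} [Finite X] [LinearOrder X] [Finite α] (h : X)
    (σ : α → Equiv.Perm X)
    (hmono : ∀ a x y, x ≠ h → y ≠ h → σ a x ≠ h → σ a y ≠ h → x < y → σ a x < σ a y)
    (D : Equiv.Perm X → Prop) : Rec 1 (fun w : List α => D (w.map σ).prod) := by
  classical
  let δ : X → α → X := fun x a => (σ a)⁻¹ x
  have hub : HubCond δ h := by
    intro ζ s n k hn hk hζ hs hper hne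
    have hstep : ∀ i j, ζ i = ζ j → s i < s j → s (i + 1) < s (j + 1) := by
      intro i j hij hlt
      by_contra hcon
      rcases eq_or_lt_of_le (not_lt.mp hcon) with h1 | h1
      · rw [hs, hs, hij] at h1
        have := (σ (ζ j))⁻¹.injective h1
        rw [this] at hlt
        exact lt_irrefl _ hlt
      · have e1 : σ (ζ j) (s (i + 1)) = s i := by
          rw [hs, hij]
          exact (σ (ζ j)).apply_symm_apply (s i)
        have e2 : σ (ζ j) (s (j + 1)) = s j := by
          rw [hs]
          exact (σ (ζ j)).apply_symm_apply (s j)
        have := hmono (ζ j) (s (j + 1)) (s (i + 1)) (hne _) (hne _) (by rw [e2]; exact hne _)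
          (by rw [e1]; exact hne _) h1
        rw [e1, e2] at this
        exact lt_asymm this hlt
    rcases lt_trichotomy (s 0) (s n) with h1 | h1 | h1
    · exfalso
      have h2 : ∀ i, s i < s (i + n) := by
        intro i
        induction i with
        | zero => simpa using h1
        | succ i ih =>
          have := hstep i (i + n) (hζ i).symm ih
          rwa [Nat.add_right_comm] at this
      have h3 : ∀ j, s 0 ≤ s (j * n) := by
        intro j
        induction j with
        | zero => simp
        | succ j ih =>
          rw [Nat.succ_mul]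
          exact ih.trans (h2 _).le
      obtain ⟨k, rfl⟩ := Nat.exists_eq_add_of_le' hk
      have h4 := h2 (k * n)
      rw [← Nat.succ_mul] at h4
      have h5 := hper 0
      rw [Nat.zero_add] at h5
      have h6 : s (k.succ * n) = s 0 := h5
      rw [h6] at h4
      exact absurd h4 (not_lt.mpr (h3 k))
    · exact h1.symm
    · exfalso
      have h2 : ∀ i, s (i + n) < s i := by
        intro i
        induction i with
        | zero => simpa using h1
        | succ i ih =>
          have := hstep (i + n) i (hζ i) ih
          rwa [Nat.add_right_comm] at this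
      have h3 : ∀ j, s (j * n) ≤ s 0 := by
        intro j
        induction j with
        | zero => simp
        | succ j ih =>
          rw [Nat.succ_mul]
          exact (h2 _).le.trans ih
      obtain ⟨k, rfl⟩ := Nat.exists_eq_add_of_le' hk
      have h4 := h2 (k * n)
      rw [← Nat.succ_mul] at h4
      have h5 := hper 0
      rw [Nat.zero_add] at h5
      have h6 : s (k.succ * n) = s 0 := h5
      rw [h6] at h4
      exact absurd h4 (not_lt.mpr (h3 k))
  have hrun : ∀ (w : List α) (x : X), w.foldl δ x = ((w.map σ).prod)⁻¹ x := by
    intro w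
    induction w with
    | nil => intro x; simp
    | cons a w ih =>
      intro x
      rw [List.foldl_cons, ih, List.map_cons, List.prod_cons, mul_inv_rev]
      rfl
  haveI : Finite (Equiv.Perm X) := inferInstance
  have h1 : ∀ g : Equiv.Perm X, Rec 1 (fun w : List α => D g ∧ ∀ x, w.foldl δ x = g⁻¹ x) :=
    fun g => (Rec.const 1 _).and (Rec.forall_fin (fun x => rec_one_of_hub δ h hub x (g⁻¹ x)))
  refine (Rec.exists_fin h1).congr (fun w => ?_)
  constructor
  · intro hw
    exact ⟨_, hw, fun x => hrun w x⟩
  · rintro ⟨g, hg, h2⟩
    have h3 : ((w.map σ).prod)⁻¹ = g⁻¹ := by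
      apply Equiv.ext
      intro x
      rw [← hrun, h2]
    rw [inv_inj] at h3
    rw [h3]
    exact hg

end Vale.Agent.P329
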