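import Vale.Agent.P329.Elem

/-! Subword counts of length at most three are realizable. -/

namespace Vale.Agent.P329

variable {α : Type}

/-- Number of occurrences of a letter. -/
noncomputable def cn (a : α) : List α → ℤ := occ a (fun _ => 1)

open Classical in
theorem cn_snoc (a : α) (w : List α) (b : α) :
    cn a (w ++ [b]) = cn a w + if b = a then 1 else 0 := occ_snoc a _ w b

theorem cn_nil (a : α) : cn a [] = 0 := occ_nil a _

/-- Number of occurrences of letters from a set. -/
noncomputable def cnS (S : Finset α) (w : List α) : ℤ := ∑ b ∈ S, cn b w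

open Classical in
theorem cnS_snoc (S : Finset α) (w : List α) (b : α) :
    cnS S (w ++ [b]) = cnS S w + if b ∈ S then 1 else 0 := by
  unfold cnS
  simp only [cn_snoc, Finset.sum_add_distrib, Finset.sum_ite_eq]

theorem cnS_nil (S : Finset α) : cnS S ([] : List α) = 0 := by
  simp [cnS, cn_nil]

/-! ### The product rule -/

open Classical in
theorem occ_mul_occ (a b : α) (f g : List α → ℤ) (w : List α) :
    occ a f w * occ b g w = occ a (fun u => f u * occ b g u) w +
      occ b (fun u => occ a f u * g u) w + (if a = b then occ a (fun u => f u * g u) w else 0) := by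
  induction w using List.reverseRecOn with
  | nil => simp [occ_nil]
  | append_singleton w c ih =>
    rw [occ_snoc, occ_snoc, occ_snoc, occ_snoc, add_mul, mul_add, mul_add, ih]
    by_cases hab : a = b
    · subst hab
      rw [if_pos rfl, if_pos rfl, occ_snoc]
      by_cases hc : c = a
      · rw [if_pos hc, if_pos hc, if_pos hc, if_pos hc, if_pos hc]
        ring
      · rw [if_neg hc, if_neg hc, if_neg hc, if_neg hc, if_neg hc]
        ring
    · rw [if_neg hab, if_neg hab]
      by_cases hc : c = a
      · have hcb : c ≠ b := fun h => hab (hc.symm.trans h)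
        rw [if_pos hc, if_pos hc, if_neg hcb, if_neg hcb]
        ring
      · by_cases hcb : c = b
        · rw [if_neg hc, if_neg hc, if_pos hcb, if_pos hcb]
          ring
        · rw [if_neg hc, if_neg hc, if_neg hcb, if_neg hcb]
          ring

/-! ### The cyclic devices -/

section Cyclic

variable (N : ℕ) (S : Finset α) (d : α)

open Classical in
/-- Letters of `S` rotate, the others do nothing. -/
noncomputable def cdel (t : ZMod N) (b : α) : ZMod N := if b ∈ S then t + 1 else t

open Classical in
/-- Completed turns are marked. -/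
noncomputable def w1 (t : ZMod N) (b : α) : Bool := decide (b ∈ S ∧ t + 1 = 0)

open Classical in
/-- Completed turns and occurrences of `d` at `0` are marked. -/
noncomputable def w2 (t : ZMod N) (b : α) : Bool :=
  decide ((b ∈ S ∧ t + 1 = 0) ∨ (b = d ∧ t = 0))

theorem cdel_const (hN : 0 < N) (ζ : ℕ → α) (s : ℕ → ZMod N) (m : ℕ) (hm : 1 ≤ m)
    (hs : ∀ i, s (i + 1) = cdel N S (s i) (ζ i)) (hper : ∀ i, s (i + m) = s i)
    (hw : ∀ i, ζ i ∈ S → s i + 1 ≠ 0) : ∀ i, s i = s 0 := by
  classical
  haveI : NeZero N := ⟨hN.ne'⟩
  have hstep : ∀ i, (s (i + 1)).val = (s i).val + if ζ i ∈ S then 1 else 0 := by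
    intro i
    by_cases h : ζ i ∈ S
    · rw [hs, cdel, if_pos h, if_pos h]
      have h1 := hw i h
      have h5 : (s i).val + 1 < N := by
        by_contra h6
        have h7 := ZMod.val_lt (s i)
        have h8 : (s i).val + 1 = N := by omega
        apply h1
        have h9 : (((s i).val + 1 : ℕ) : ZMod N) = 0 := by
          rw [h8]
          simp
        push_cast at h9
        rwa [ZMod.natCast_zmod_val] at h9
      have h10 : (((s i).val + 1 : ℕ) : ZMod N) = s i + 1 := by
        push_cast
        rw [ZMod.natCast_zmod_val]
      rw [← h10, ZMod.val_natCast_of_lt h5]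
    · rw [hs, cdel, if_neg h, if_neg h, Nat.add_zero]
  have hmono : Monotone (fun i => (s i).val) := by
    apply monotone_nat_of_le_succ
    intro i
    rw [hstep]
    omega
  have hnS : ∀ i, ζ i ∉ S := by
    intro i h
    have h1 := hstep i
    rw [if_pos h] at h1
    have h2 : (s (i + 1)).val ≤ (s (i + m)).val := hmono (by omega)
    rw [hper] at h2
    omega
  intro i
  induction i with
  | zero => rfl
  | succ i ih => rw [hs, cdel, if_neg (hnS i), ih]

theorem devCond_one (hN : 0 < N) : DevCond (cdel N S) (w1 N S) 0 := by
  classical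
  refine ⟨?_, ?_⟩
  · intro t b h
    rw [w1, decide_eq_true_eq] at h
    rw [cdel, if_pos h.1, h.2]
  · intro ζ s n k hn hk hζ hs hper hw
    refine cdel_const N S hN ζ s (k * n) (Nat.mul_pos hk hn) hs hper ?_ n
    intro i hi h
    have := hw i
    rw [w1, decide_eq_false_iff_not] at this
    exact this ⟨hi, h⟩

theorem devCond_two (hN : 0 < N) (hd : d ∉ S) : DevCond (cdel N S) (w2 N S d) 0 := by
  classical
  refine ⟨?_, ?_⟩
  · intro t b h
    rw [w2, decide_eq_true_eq] at h
    rcases h with h | h
    · rw [cdel, if_pos h.1, h.2]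
    · rw [cdel, if_neg (by rw [h.1]; exact hd), h.2]
  · intro ζ s n k hn hk hζ hs hper hw
    refine cdel_const N S hN ζ s (k * n) (Nat.mul_pos hk hn) hs hper ?_ n
    intro i hi h
    have := hw i
    rw [w2, decide_eq_false_iff_not] at this
    exact this (Or.inl ⟨hi, h⟩)

theorem cdel_run (t : ZMod N) (w : List α) :
    w.foldl (cdel N S) t = t + ((cnS S w : ℤ) : ZMod N) := by
  classical
  induction w using List.reverseRecOn with
  | nil => simp [cnS_nil]
  | append_singleton w b ih =>
    rw [List.foldl_append, List.foldl_cons, List.foldl_nil, ih, cnS_snoc, cdel]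
    push_cast
    split_ifs <;> ring

theorem total_two_one (hd : d ∉ S) (t : ZMod N) (w : List α) :
    total (cdel N S) (w2 N S d) t w - total (cdel N S) (w1 N S) t w =
      occ d (fun u => ind (t + ((cnS S u : ℤ) : ZMod N) = 0)) w := by
  classical
  induction w using List.reverseRecOn with
  | nil => simp [total, occ_nil]
  | append_singleton w b ih =>
    rw [total_snoc, total_snoc, occ_snoc, cdel_run]
    set v := t + ((cnS S w : ℤ) : ZMod N) with hv
    by_cases hb : b = d
    · subst hb
      have h1 : w1 N S v b = false := decide_eq_false (fun h => hd h.1)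
      rw [h1, if_pos rfl]
      by_cases h0 : v = 0
      · have h2 : w2 N S b v b = true := decide_eq_true (Or.inr ⟨rfl, h0⟩)
        rw [h2, ind_true h0]
        simp only [if_true, Bool.false_eq_true, if_false]
        linarith
      · have h2 : w2 N S b v b = false := decide_eq_false (by
          rintro (h | h)
          · exact hd h.1
          · exact h0 h.2)
        rw [h2, ind_false h0]
        simp only [Bool.false_eq_true, if_false]
        linarith
    · have h1 : w2 N S d v b = w1 N S v b := by
        unfold w2 w1
        congr 1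
        apply propext
        constructor
        · rintro (h | h)
          · exact h
          · exact absurd h.1 hb
        · exact Or.inl
      rw [h1, if_neg hb]
      linarith

end Cyclic

theorem occ_cast_congr {M : ℕ} (d : α) (f g : List α → ℤ)
    (h : ∀ u, ((f u : ℤ) : ZMod M) = g u) (w : List α) :
    ((occ d f w : ℤ) : ZMod M) = occ d g w := by
  classical
  induction w using List.reverseRecOn with
  | nil => simp [occ_nil]
  | append_singleton w b ih =>
    rw [occ_snoc, occ_snoc]
    push_cast
    rw [ih]
    split_ifs
    · rw [h]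
    · rfl

section Realizable

variable [Finite α]

theorem realz_occ_mod {N : ℕ} (hN : 0 < N) (S : Finset α) (d : α) (hd : d ∉ S) (t : ZMod N) :
    Realz (occ d (fun u => ind (t + ((cnS S u : ℤ) : ZMod N) = 0))) := by
  haveI : NeZero N := ⟨hN.ne'⟩
  exact (((devCond_two N S d hN hd).realz_total t).sub
    ((devCond_one N S hN).realz_total t)).congr (fun w => (total_two_one N S d hd t w).symm)

theorem realz_occ_fun {N : ℕ} (hN : 0 < N) (S : Finset α) (d : α) (hd : d ∉ S)
    (g : ZMod N → ℤ) : Realz (occ d (fun u => g ((cnS S u : ℤ) : ZMod N))) := by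
  classical
  haveI : NeZero N := ⟨hN.ne'⟩
  refine (Realz.sum Finset.univ (fun t _ =>
    (realz_occ_mod hN S d hd t).smul (g (-t)))).congr (fun w => ?_)
  rw [← Finset.sum_congr rfl (fun t _ => occ_smul d (g (-t)) _ w), ← occ_sum]
  refine occ_congr (fun u => ?_) w
  rw [Finset.sum_eq_single (-((cnS S u : ℤ) : ZMod N))]
  · rw [ind_true (by ring), neg_neg, mul_one]
  · intro t _ ht
    rw [ind_false (fun h => ht (eq_neg_of_add_eq_zero_left h)), mul_zero]
  · simp

theorem realz_occ_poly (S : Finset α) (d : α) (hd : d ∉ S) (f : ℤ → ℤ)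
    (hf : ∀ (M : ℕ) (x y : ℤ), (x : ZMod M) = y → ((f x : ℤ) : ZMod M) = f y) :
    Realz (occ d (fun u => f (cnS S u))) := by
  intro M hM c
  haveI : NeZero M := ⟨hM.ne'⟩
  refine (realz_occ_fun hM S d hd (fun x => f x.val) M hM c).congr (fun w => ?_)
  rw [occ_cast_congr (M := M) d (fun u => f (cnS S u))
    (fun u => f (((cnS S u : ℤ) : ZMod M).val)) (fun u => hf M _ _ (by simp)) w]

theorem realz_cn (a : α) : Realz (cn a) := realz_count a

theorem cnS_single (x : α) (w : List α) : cnS {x} w = cn x w := by
  simp [cnS]

theorem cnS_pair {x y : α} (h : x ≠ y) [DecidableEq α] (w : List α) :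
    cnS {x, y} w = cn x w + cn y w := by
  unfold cnS
  rw [Finset.sum_pair h]

theorem occ_one_cn (a : α) (w : List α) : cn a w ^ 2 = 2 * occ a (cn a) w + cn a w := by
  have h := occ_mul_occ a a (fun _ => 1) (fun _ => 1) w
  rw [if_pos rfl] at h
  have e1 : occ a (fun u => (1 : ℤ) * occ a (fun _ => 1) u) w = occ a (cn a) w :=
    occ_congr (fun u => one_mul _) w
  have e2 : occ a (fun u => occ a (fun _ => 1) u * (1 : ℤ)) w = occ a (cn a) w :=
    occ_congr (fun u => mul_one _) w
  have e3 : occ a (fun _ => (1 : ℤ) * 1) w = cn a w := occ_congr (fun u => one_mul _) w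
  rw [e1, e2, e3] at h
  have e4 : occ a (fun _ => 1) w = cn a w := rfl
  rw [e4] at h
  rw [pow_two, h]
  ring

theorem realz_occ_cn (a b : α) : Realz (occ b (cn a)) := by
  classical
  by_cases hab : b = a
  · subst hab
    apply Realz.of_mul (r := 2) (by norm_num)
    refine (((realz_cn b).mul (realz_cn b)).sub (realz_cn b)).congr (fun w => ?_)
    have := occ_one_cn b w
    rw [pow_two] at this
    linarith
  · refine (realz_occ_poly {a} b (by simpa using hab) (fun x => x)
      (fun M x y h => h)).congr (fun w => occ_congr (fun u => ?_) w)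
    rw [cnS_single]

theorem cast_sq (M : ℕ) (x y : ℤ) (h : (x : ZMod M) = y) :
    ((x ^ 2 : ℤ) : ZMod M) = ((y ^ 2 : ℤ) : ZMod M) := by
  push_cast
  rw [h]

theorem realz_occ_sq {a b : α} (hab : b ≠ a) : Realz (occ b (fun u => cn a u ^ 2)) := by
  classical
  refine (realz_occ_poly {a} b (by simpa using hab) (fun x => x ^ 2)
    (fun M x y h => cast_sq M x y h)).congr (fun w => occ_congr (fun u => ?_) w)
  rw [cnS_single]

theorem mul_cn_occ (x z : α) (f : List α → ℤ) (w : List α) [DecidableEq α] :
    cn x w * occ z f w = occ x (occ z f) w + occ z (fun u => cn x u * f u) w +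
      (if x = z then occ z f w else 0) := by
  have h := occ_mul_occ x z (fun _ => 1) f w
  have e1 : occ x (fun u => (1 : ℤ) * occ z f u) w = occ x (occ z f) w :=
    occ_congr (fun u => one_mul _) w
  rw [e1] at h
  have e2 : occ x (fun _ => 1) w = cn x w := rfl
  rw [e2] at h
  rw [h]
  congr 1
  by_cases hxz : x = z
  · subst hxz
    rw [if_pos rfl, if_pos rfl]
    exact occ_congr (fun u => one_mul _) w
  · rw [if_neg hxz, if_neg hxz]

/-- Sum of the product of two letter counts over the occurrences of a letter. -/
theorem realz_occ_cn_cn (x y z : α) : Realz (occ z (fun u => cn x u * cn y u)) := by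
  classical
  -- the mixed case `occ z (cn z * cn y)`
  have mixed : ∀ y z : α, y ≠ z → Realz (occ z (fun u => cn y u * cn z u)) := by
    intro y z hyz
    have h1 : Realz (occ y (occ z (cn z))) := by
      apply Realz.of_mul (r := 2) (by norm_num)
      refine ((realz_occ_sq hyz).sub (realz_occ_cn z y)).congr (fun w => ?_)
      rw [← occ_smul, ← occ_sub]
      refine occ_congr (fun u => ?_) w
      have := occ_one_cn z u
      linarith
    refine (((realz_cn y).mul (realz_occ_cn z z)).sub h1).congr (fun w => ?_)
    rw [mul_cn_occ, if_neg hyz]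
    ring
  by_cases hxz : x = z
  · by_cases hyz : y = z
    · subst hxz
      subst hyz
      apply Realz.of_mul (r := 3) (by norm_num)
      refine ((((realz_cn y).mul ((realz_cn y).mul (realz_cn y))).sub
        ((realz_occ_cn y y).smul 3)).sub (realz_cn y)).congr (fun w => ?_)
      induction w using List.reverseRecOn with
      | nil => simp [occ_nil, cn_nil]
      | append_singleton w b ih =>
        rw [occ_snoc, occ_snoc, cn_snoc]
        by_cases hb : b = y
        · rw [if_pos hb, if_pos hb, if_pos hb]
          linear_combination ih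
        · rw [if_neg hb, if_neg hb, if_neg hb]
          linear_combination ih
    · subst hxz
      exact (mixed y x hyz).congr (fun w => occ_congr (fun u => mul_comm _ _) w)
  · by_cases hyz : y = z
    · subst hyz
      exact mixed x y hxz
    · by_cases hxy : x = y
      · subst hxy
        refine (realz_occ_sq (Ne.symm hxz)).congr (fun w => occ_congr (fun u => ?_) w)
        rw [pow_two]
      · apply Realz.of_mul (r := 2) (by norm_num)
        have h1 : Realz (occ z (fun u => cnS {x, y} u ^ 2)) :=
          realz_occ_poly {x, y} z (by simp [Ne.symm hxz, Ne.symm hyz]) (fun t => t ^ 2)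
            (fun M a b h => cast_sq M a b h)
        refine ((h1.sub (realz_occ_sq (Ne.symm hxz))).sub
          (realz_occ_sq (Ne.symm hyz))).congr (fun w => ?_)
        rw [← occ_sub, ← occ_sub, ← occ_smul]
        refine occ_congr (fun u => ?_) w
        rw [cnS_pair hxy]
        ring

/-- All nested sums of depth three. -/
theorem realz_occ_occ_cn (x z y : α) : Realz (occ x (occ z (cn y))) := by
  classical
  refine ((((realz_cn x).mul (realz_occ_cn y z)).sub (realz_occ_cn_cn x y z)).sub
    ((realz_occ_cn y z).smul (if x = z then 1 else 0))).congr (fun w => ?_)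
  rw [mul_cn_occ]
  split_ifs <;> ring

end Realizable

end Vale.Agent.P329
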