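import Vale.Agent.P329.Functional

/-! Occurrences of a letter at a prescribed prefix value in an elementary abelian group. -/

namespace Vale.Agent.P329

variable {α : Type}

open Classical in
/-- Indicator of a proposition. -/
noncomputable def ind (P : Prop) : ℤ := if P then 1 else 0

theorem ind_true {P : Prop} (h : P) : ind P = 1 := by simp [ind, h]

theorem ind_false {P : Prop} (h : ¬ P) : ind P = 0 := by simp [ind, h]

theorem ind_congr {P Q : Prop} (h : P ↔ Q) : ind P = ind Q := by
  rw [propext h]

section Device

variable {p : ℕ} [Fact p.Prime] (τ : α → ZMod p) (a : α)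

open Classical in
/-- Transition of the flagged cyclic automaton. -/
noncomputable def fdel (s : ZMod p × Bool) (b : α) : ZMod p × Bool :=
  if s.1 + τ b = 0 then (0, false) else (s.1 + τ b, if s.1 = 0 then decide (b = a) else s.2)

open Classical in
/-- All arrivals at `0` are marked. -/
noncomputable def wE (s : ZMod p × Bool) (b : α) : Bool := decide (s.1 + τ b = 0)

open Classical in
/-- Arrivals, except after a return starting with `a` and not ending with `a`. -/
noncomputable def wU (s : ZMod p × Bool) (b : α) : Bool :=
  decide (s.1 + τ b = 0 ∧ ¬ (s.1 ≠ 0 ∧ s.2 = true ∧ b ≠ a))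

open Classical in
/-- Arrivals, except after a return not starting with `a` and ending with `a`. -/
noncomputable def wV (s : ZMod p × Bool) (b : α) : Bool :=
  decide (s.1 + τ b = 0 ∧ ¬ (s.1 ≠ 0 ∧ s.2 = false ∧ b = a))

open Classical in
/-- Arrivals, except the one-letter returns `a`. -/
noncomputable def wT (s : ZMod p × Bool) (b : α) : Bool :=
  decide (s.1 + τ b = 0 ∧ ¬ (s.1 = 0 ∧ b = a))

theorem fdel_fst (s : ZMod p × Bool) (b : α) : (fdel τ a s b).1 = s.1 + τ b := by
  unfold fdel
  split_ifs with h <;> simp [h]

theorem fdel_arrive (s : ZMod p × Bool) (b : α) (h : s.1 + τ b = 0) :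
    fdel τ a s b = (0, false) := by
  unfold fdel
  rw [if_pos h]

theorem fdel_snd_start (s : ZMod p × Bool) (b : α) (h : s.1 + τ b ≠ 0) (h0 : s.1 = 0) :
    (fdel τ a s b).2 = true ↔ b = a := by
  unfold fdel
  rw [if_neg h, if_pos h0]
  simp

theorem fdel_snd_mid (s : ZMod p × Bool) (b : α) (h : s.1 + τ b ≠ 0) (h0 : s.1 ≠ 0) :
    (fdel τ a s b).2 = s.2 := by
  unfold fdel
  rw [if_neg h, if_neg h0]

/-- A general criterion: markings such that the input has zero displacement along unmarked
periodic runs. -/
theorem devCond_of_disp (wt : ZMod p × Bool → α → Bool)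
    (harr : ∀ s b, wt s b = true → s.1 + τ b = 0)
    (hdisp : ∀ (ζ : ℕ → α) (s : ℕ → ZMod p × Bool) (n : ℕ), 1 ≤ n →
      (∀ i, ζ (i + n) = ζ i) → (∀ i, s (i + 1) = fdel τ a (s i) (ζ i)) →
      (∀ i, wt (s i) (ζ i) = false) →
      (∀ l N, ∃ j, N ≤ l + j * n ∧ (s (l + j * n)).1 = 0) → (s n).1 ≠ (s 0).1 → False) :
    DevCond (fdel τ a) wt (0, false) := by
  refine ⟨fun s b h => fdel_arrive τ a s b (harr s b h), ?_⟩
  intro ζ s n k hn hk hζ hs hper hw
  have hfst : ∀ i, (s (i + 1)).1 = (s i).1 + τ (ζ i) := by
    intro i
    rw [hs, fdel_fst]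
  have hdiff : ∀ i, (s (i + n)).1 - (s i).1 = (s n).1 - (s 0).1 := by
    intro i
    induction i with
    | zero => simp
    | succ i ih =>
      rw [← ih, Nat.succ_add, hfst, hfst, hζ]
      ring
  have hj : ∀ i j, (s (i + j * n)).1 = (s i).1 + j * ((s n).1 - (s 0).1) := by
    intro i j
    induction j with
    | zero => simp
    | succ j ih =>
      have h1 := hdiff (i + j * n)
      rw [Nat.succ_mul, ← Nat.add_assoc]
      push_cast
      linear_combination h1 + ih
  have hζj : ∀ i j, ζ (i + j * n) = ζ i := by
    intro i j
    induction j with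
    | zero => simp
    | succ j ih => rw [Nat.succ_mul, ← Nat.add_assoc, hζ, ih]
  by_cases hD : (s n).1 = (s 0).1
  · by_cases hz : ∃ i0, (s i0).1 = 0
    · obtain ⟨i0, hi0⟩ := hz
      have hn0 : ∀ i, (s (i + n)).1 = (s i).1 := by
        intro i
        have := hdiff i
        rw [hD, sub_self, sub_eq_zero] at this
        exact this
      have hstart : s (i0 + 1 + n) = s (i0 + 1) := by
        have e : i0 + 1 + n = (i0 + n) + 1 := by omega
        rw [e, hs, hs, hζ]
        have h1 : (s (i0 + n)).1 = 0 := by rw [hn0, hi0]
        unfold fdel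
        rw [h1, hi0]
        simp
      have hev : ∀ d, s (i0 + 1 + d + n) = s (i0 + 1 + d) := by
        intro d
        induction d with
        | zero => exact hstart
        | succ d ih =>
          have e : i0 + 1 + (d + 1) + n = (i0 + 1 + d + n) + 1 := by omega
          rw [e, hs, ih, hζ, ← Nat.add_assoc, hs]
      have hm : ∀ i m, s (i + m * (k * n)) = s i := by
        intro i m
        induction m with
        | zero => simp
        | succ m ih => rw [Nat.succ_mul, ← Nat.add_assoc, hper, ih]
      have hle : i0 + 1 ≤ (i0 + 1) * (k * n) :=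
        Nat.le_mul_of_pos_right _ (Nat.mul_pos hk hn)
      obtain ⟨d, hd⟩ := Nat.exists_eq_add_of_le hle
      have h1 := hev d
      rw [← hd] at h1
      have h2 := hm 0 (i0 + 1)
      have h3 := hm n (i0 + 1)
      rw [Nat.zero_add] at h2
      rw [Nat.add_comm] at h3
      rw [← h2, ← h1, h3]
    · push Not at hz
      have hsnd : ∀ i, (s i).2 = (s 0).2 := by
        intro i
        induction i with
        | zero => rfl
        | succ i ih =>
          have h1 : (s i).1 + τ (ζ i) ≠ 0 := by
            rw [← hfst]
            exact hz _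
          rw [hs, fdel_snd_mid τ a _ _ h1 (hz i), ih]
      exact Prod.ext hD (hsnd n)
  · exfalso
    refine hdisp ζ s n hn hζ hs hw ?_ hD
    intro l N
    have hD' : (s n).1 - (s 0).1 ≠ 0 := sub_ne_zero.mpr hD
    refine ⟨(-(s l).1 * ((s n).1 - (s 0).1)⁻¹).val + p * N, ?_, ?_⟩
    · have h1 : 1 ≤ p := (Fact.out : p.Prime).one_le
      have h2 : N ≤ p * N := Nat.le_mul_of_pos_left N h1
      have h3 : p * N ≤ ((-(s l).1 * ((s n).1 - (s 0).1)⁻¹).val + p * N) * n := by
        calc p * N ≤ (-(s l).1 * ((s n).1 - (s 0).1)⁻¹).val + p * N := by omega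
          _ ≤ _ := Nat.le_mul_of_pos_right _ hn
      omega
    · rw [hj]
      push_cast
      rw [ZMod.natCast_zmod_val, CharP.cast_eq_zero, zero_mul, add_zero]
      field_simp
      ring

theorem devCond_E : DevCond (fdel τ a) (wE τ) (0, false) := by
  apply devCond_of_disp τ a
  · intro s b h
    simpa [wE] using h
  · intro ζ s n hn hζ hs hw hit hD
    obtain ⟨j, hj1, hj2⟩ := hit 0 1
    obtain ⟨i, hi⟩ := Nat.exists_eq_add_of_le' hj1
    rw [hi, hs, fdel_fst] at hj2
    have := hw i
    simp [wE, hj2] at this

theorem hit_letter {n : ℕ} {s : ℕ → ZMod p × Bool} {ζ : ℕ → α}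
    (hζ : ∀ i, ζ (i + n) = ζ i)
    (hit : ∀ l N, ∃ j, N ≤ l + j * n ∧ (s (l + j * n)).1 = 0) (l N : ℕ) :
    ∃ i, N ≤ i ∧ ζ i = ζ l ∧ (s (i + 1)).1 = 0 := by
  have hζj : ∀ i j, ζ (i + j * n) = ζ i := by
    intro i j
    induction j with
    | zero => simp
    | succ j ih => rw [Nat.succ_mul, ← Nat.add_assoc, hζ, ih]
  obtain ⟨j, hj1, hj2⟩ := hit (l + 1) (N + 1)
  refine ⟨l + j * n, by omega, hζj l j, ?_⟩
  rw [← hj2]
  congr 2
  omega

theorem devCond_T (ha : τ a = 0) : DevCond (fdel τ a) (wT τ a) (0, false) := by
  apply devCond_of_disp τ a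
  · intro s b h
    simp only [wT, decide_eq_true_eq] at h
    exact h.1
  · intro ζ s n hn hζ hs hw hit hD
    have hall : ∀ l, ζ l = a := by
      intro l
      obtain ⟨i, -, hi1, hi2⟩ := hit_letter (n := n) hζ hit l 0
      rw [hs, fdel_fst] at hi2
      have h1 := hw i
      rw [wT, decide_eq_false_iff_not] at h1
      rw [← hi1]
      exact (not_not.mp (fun h => h1 ⟨hi2, h⟩)).2
    apply hD
    have : ∀ i, (s i).1 = (s 0).1 := by
      intro i
      induction i with
      | zero => rfl
      | succ i ih => rw [hs, fdel_fst, hall, ha, add_zero, ih]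
    exact this n

theorem devCond_U : DevCond (fdel τ a) (wU τ a) (0, false) := by
  apply devCond_of_disp τ a
  · intro s b h
    simp only [wU, decide_eq_true_eq] at h
    exact h.1
  · intro ζ s n hn hζ hs hw hit hD
    have hw' : ∀ i, (s (i + 1)).1 = 0 → (s i).1 ≠ 0 ∧ (s i).2 = true ∧ ζ i ≠ a := by
      intro i hi
      rw [hs, fdel_fst] at hi
      have h1 := hw i
      rw [wU, decide_eq_false_iff_not] at h1
      exact not_not.mp (fun h => h1 ⟨hi, h⟩)
    have hall : ∀ l, ζ l ≠ a := by
      intro l
      obtain ⟨i, -, hi1, hi2⟩ := hit_letter (n := n) hζ hit l 0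
      rw [← hi1]
      exact (hw' i hi2).2.2
    obtain ⟨j, -, hj⟩ := hit 0 0
    set i0 := 0 + j * n with hi0
    have hfalse : ∀ d, (s (i0 + 1 + d)).2 = false := by
      intro d
      induction d with
      | zero =>
        rw [Nat.add_zero, hs]
        by_cases h1 : (s i0).1 + τ (ζ i0) = 0
        · rw [fdel_arrive τ a _ _ h1]
        · by_contra h2
          exact hall i0 ((fdel_snd_start τ a _ _ h1 hj).mp (by simpa using h2))
      | succ d ih =>
        rw [← Nat.add_assoc, hs]
        by_cases h1 : (s (i0 + 1 + d)).1 + τ (ζ (i0 + 1 + d)) = 0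
        · rw [fdel_arrive τ a _ _ h1]
        · by_cases h0 : (s (i0 + 1 + d)).1 = 0
          · by_contra h2
            exact hall (i0 + 1 + d) ((fdel_snd_start τ a _ _ h1 h0).mp (by simpa using h2))
          · rw [fdel_snd_mid τ a _ _ h1 h0, ih]
    obtain ⟨i, hi1, -, hi2⟩ := hit_letter (n := n) hζ hit 0 (i0 + 1)
    obtain ⟨d, rfl⟩ := Nat.exists_eq_add_of_le hi1
    have h1 := (hw' _ hi2).2.1
    rw [hfalse d] at h1
    cases h1

theorem devCond_V : DevCond (fdel τ a) (wV τ a) (0, false) := by
  apply devCond_of_disp τ a
  · intro s b h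
    simp only [wV, decide_eq_true_eq] at h
    exact h.1
  · intro ζ s n hn hζ hs hw hit hD
    have hw' : ∀ i, (s (i + 1)).1 = 0 → (s i).1 ≠ 0 ∧ (s i).2 = false ∧ ζ i = a := by
      intro i hi
      rw [hs, fdel_fst] at hi
      have h1 := hw i
      rw [wV, decide_eq_false_iff_not] at h1
      exact not_not.mp (fun h => h1 ⟨hi, h⟩)
    have hall : ∀ l, ζ l = a := by
      intro l
      obtain ⟨i, -, hi1, hi2⟩ := hit_letter (n := n) hζ hit l 0
      rw [← hi1]
      exact (hw' i hi2).2.2
    obtain ⟨j, -, hj⟩ := hit 0 0
    set i0 := 0 + j * n with hi0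
    have hclaim : ∀ d, (s (i0 + d)).1 = 0 ∨ (s (i0 + d)).2 = true := by
      intro d
      induction d with
      | zero => exact Or.inl hj
      | succ d ih =>
        rw [← Nat.add_assoc]
        by_cases h1 : (s (i0 + d)).1 + τ (ζ (i0 + d)) = 0
        · left
          rw [hs, fdel_fst, h1]
        · right
          rw [hs]
          by_cases h0 : (s (i0 + d)).1 = 0
          · exact (fdel_snd_start τ a _ _ h1 h0).mpr (hall _)
          · rw [fdel_snd_mid τ a _ _ h1 h0]
            exact ih.resolve_left h0
    obtain ⟨i, hi1, -, hi2⟩ := hit_letter (n := n) hζ hit 0 i0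
    obtain ⟨d, rfl⟩ := Nat.exists_eq_add_of_le hi1
    have h1 := hw' _ hi2
    rcases hclaim d with h2 | h2
    · exact h1.1 h2
    · rw [h1.2.1] at h2
      cases h2

theorem run_fst (w : List α) :
    (w.foldl (fdel τ a) (0, false)).1 = (w.map τ).sum := by
  induction w using List.reverseRecOn with
  | nil => rfl
  | append_singleton w b ih =>
    rw [List.foldl_append, List.foldl_cons, List.foldl_nil, fdel_fst, ih]
    simp

/-- The pending flag. -/
noncomputable def pend (s : ZMod p × Bool) : ℤ := ind (s.1 ≠ 0 ∧ s.2 = true)

theorem total_VU (w : List α) :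
    total (fdel τ a) (wV τ a) (0, false) w - total (fdel τ a) (wU τ a) (0, false) w =
      occ a (fun u => ind ((u.map τ).sum = 0)) w -
      occ a (fun u => ind (τ a + (u.map τ).sum = 0)) w -
      pend (w.foldl (fdel τ a) (0, false)) := by
  classical
  induction w using List.reverseRecOn with
  | nil => simp [total, occ_nil, pend, ind]
  | append_singleton w b ih =>
    rw [total_snoc, total_snoc, occ_snoc, occ_snoc, List.foldl_append, List.foldl_cons,
      List.foldl_nil]
    have hfst := run_fst τ a w
    set s := w.foldl (fdel τ a) (0, false) with hs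
    rw [← hfst]
    by_cases h1 : s.1 + τ b = 0
    · rw [fdel_arrive τ a s b h1]
      have hp : pend ((0 : ZMod p), false) = 0 := by simp [pend, ind]
      rw [hp]
      by_cases h0 : s.1 = 0
      · have hp' : pend s = 0 := by simp [pend, ind, h0]
        have hV : wV τ a s b = true := decide_eq_true ⟨h1, fun h => h.1 h0⟩
        have hU : wU τ a s b = true := decide_eq_true ⟨h1, fun h => h.1 h0⟩
        rw [hV, hU]
        rw [hp'] at ih
        by_cases hb : b = a
        · subst hb
          have e1 : ind (s.1 = 0) = 1 := ind_true h0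
          have e2 : ind (τ b + s.1 = 0) = 1 := ind_true (by rw [add_comm]; exact h1)
          rw [if_pos rfl, if_pos rfl, e1, e2]
          simp only [if_true]
          linarith
        · rw [if_neg hb, if_neg hb]
          simp only [if_true]
          linarith
      · by_cases hf : s.2 = true
        · have hp' : pend s = 1 := by simp [pend, ind, h0, hf]
          rw [hp'] at ih
          have hV : wV τ a s b = true := by simp [wV, h1, hf]
          by_cases hb : b = a
          · have hU : wU τ a s b = true := decide_eq_true ⟨h1, fun h => h.2.2 hb⟩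
            rw [hV, hU]
            subst hb
            have e1 : ind (s.1 = 0) = 0 := ind_false h0
            have e2 : ind (τ b + s.1 = 0) = 1 := ind_true (by rw [add_comm]; exact h1)
            rw [if_pos rfl, if_pos rfl, e1, e2]
            simp only [if_true]
            linarith
          · have hU : wU τ a s b = false := by simp [wU, h0, hf, hb]
            rw [hV, hU, if_neg hb, if_neg hb]
            simp only [if_true, Bool.false_eq_true, if_false]
            linarith
        · have hf' : s.2 = false := by simpa using hf
          have hp' : pend s = 0 := by simp [pend, ind, hf']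
          rw [hp'] at ih
          have hU : wU τ a s b = true := by simp [wU, h1, hf']
          by_cases hb : b = a
          · have hV : wV τ a s b = false := by simp [wV, h0, hf', hb]
            rw [hV, hU]
            subst hb
            have e1 : ind (s.1 = 0) = 0 := ind_false h0
            have e2 : ind (τ b + s.1 = 0) = 1 := ind_true (by rw [add_comm]; exact h1)
            rw [if_pos rfl, if_pos rfl, e1, e2]
            simp only [if_true, Bool.false_eq_true, if_false]
            linarith
          · have hV : wV τ a s b = true := by simp [wV, h1, hb]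
            rw [hV, hU, if_neg hb, if_neg hb]
            simp only [if_true]
            linarith
    · have hV : wV τ a s b = false := by simp [wV, h1]
      have hU : wU τ a s b = false := by simp [wU, h1]
      rw [hV, hU]
      have hp' : pend (fdel τ a s b) = ind ((fdel τ a s b).2 = true) := by
        refine ind_congr ?_
        rw [fdel_fst]
        exact ⟨fun h => h.2, fun h => ⟨h1, h⟩⟩
      rw [hp']
      by_cases h0 : s.1 = 0
      · have hp'' : pend s = 0 := by simp [pend, ind, h0]
        rw [hp''] at ih
        rw [ind_congr (fdel_snd_start τ a s b h1 h0)]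
        by_cases hb : b = a
        · subst hb
          have e1 : ind (s.1 = 0) = 1 := ind_true h0
          have e2 : ind (τ b + s.1 = 0) = 0 := ind_false (by rw [add_comm]; exact h1)
          have e3 : ind (b = b) = 1 := ind_true rfl
          rw [if_pos rfl, if_pos rfl, e1, e2, e3]
          simp only [Bool.false_eq_true, if_false]
          linarith
        · rw [if_neg hb, if_neg hb, ind_false hb]
          simp only [Bool.false_eq_true, if_false]
          linarith
      · rw [fdel_snd_mid τ a s b h1 h0]
        have hp'' : pend s = ind (s.2 = true) := by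
          refine ind_congr ?_
          exact ⟨fun h => h.2, fun h => ⟨h0, h⟩⟩
        rw [hp''] at ih
        by_cases hb : b = a
        · subst hb
          have e1 : ind (s.1 = 0) = 0 := ind_false h0
          have e2 : ind (τ b + s.1 = 0) = 0 := ind_false (by rw [add_comm]; exact h1)
          rw [if_pos rfl, if_pos rfl, e1, e2]
          simp only [Bool.false_eq_true, if_false]
          linarith
        · rw [if_neg hb, if_neg hb]
          simp only [Bool.false_eq_true, if_false]
          linarith

theorem total_ET (ha : τ a = 0) (w : List α) :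
    total (fdel τ a) (wE τ) (0, false) w - total (fdel τ a) (wT τ a) (0, false) w =
      occ a (fun u => ind ((u.map τ).sum = 0)) w := by
  classical
  induction w using List.reverseRecOn with
  | nil => simp [total, occ_nil]
  | append_singleton w b ih =>
    rw [total_snoc, total_snoc, occ_snoc]
    have hfst := run_fst τ a w
    set s := w.foldl (fdel τ a) (0, false) with hs
    rw [← hfst]
    by_cases h1 : s.1 + τ b = 0
    · have hE : wE τ s b = true := by simp [wE, h1]
      rw [hE]
      by_cases hb : b = a
      · subst hb
        have h0 : s.1 = 0 := by rwa [ha, add_zero] at h1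
        have hT : wT τ b s b = false := by simp [wT, h0]
        have e1 : ind (s.1 = 0) = 1 := ind_true h0
        rw [hT, e1]
        simp only [if_true, Bool.false_eq_true, if_false]
        linarith
      · have hT : wT τ a s b = true := by simp [wT, h1, hb]
        rw [hT, if_neg hb]
        simp only [if_true]
        linarith
    · have hE : wE τ s b = false := by simp [wE, h1]
      have hT : wT τ a s b = false := by simp [wT, h1]
      rw [hE, hT]
      by_cases hb : b = a
      · subst hb
        have h0 : s.1 ≠ 0 := by
          intro h0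
          apply h1
          rw [ha, add_zero, h0]
        have e1 : ind (s.1 = 0) = 0 := ind_false h0
        rw [e1]
        simp only [Bool.false_eq_true, if_false, if_true]
        linarith
      · rw [if_neg hb]
        simp only [Bool.false_eq_true, if_false]
        linarith

end Device

end Vale.Agent.P329
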