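import Vale.Agent.P329.Closure

/-! Schuetzenberger's theorem (finite aperiodic monoids recognize star-free languages),
by local divisors. -/

namespace Vale.Agent.P329

/-- The local divisor of `M` at `c`. -/
def LocDiv {M : Type} [Monoid M] (c : M) : Type :=
  {y : M // (∃ p, y = c * p) ∧ (∃ q, y = q * c)}

namespace LocDiv

variable {M : Type} [Monoid M] {c : M}

/-- A right cofactor. -/
noncomputable def rt (y : LocDiv c) : M := y.2.1.choose

theorem eq_mul_rt (y : LocDiv c) : y.1 = c * rt y := y.2.1.choose_spec

/-- The product of the local divisor. -/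
noncomputable def mulD (y z : LocDiv c) : LocDiv c :=
  ⟨y.1 * rt z, by
    obtain ⟨p, hp⟩ := y.2.1
    exact ⟨p * rt z, by rw [hp, mul_assoc]⟩, by
    obtain ⟨q, hq⟩ := y.2.2
    obtain ⟨q', hq'⟩ := z.2.2
    refine ⟨q * q', ?_⟩
    rw [hq, mul_assoc, ← eq_mul_rt, hq', mul_assoc]⟩

theorem mulD_val (y z : LocDiv c) (q : M) (hq : y.1 = q * c) :
    (mulD y z).1 = q * z.1 := by
  show y.1 * rt z = q * z.1
  rw [hq, mul_assoc, ← eq_mul_rt]

/-- The unit of the local divisor. -/
def oneD : LocDiv c := ⟨c, ⟨1, by rw [mul_one]⟩, ⟨1, by rw [one_mul]⟩⟩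

noncomputable instance : Monoid (LocDiv c) where
  mul := mulD
  one := oneD
  mul_assoc := by
    intro x y z
    obtain ⟨q, hq⟩ := x.2.2
    obtain ⟨q', hq'⟩ := y.2.2
    apply Subtype.ext
    show (mulD (mulD x y) z).1 = (mulD x (mulD y z)).1
    rw [mulD_val x (mulD y z) q hq, mulD_val y z q' hq',
      mulD_val (mulD x y) z (q * q') (by rw [mulD_val x y q hq, hq', mul_assoc]), mul_assoc]
  one_mul := by
    intro y
    apply Subtype.ext
    show (mulD oneD y).1 = y.1
    rw [mulD_val oneD y 1 (by rw [one_mul]; rfl), one_mul]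
  mul_one := by
    intro y
    obtain ⟨q, hq⟩ := y.2.2
    apply Subtype.ext
    show (mulD y oneD).1 = y.1
    rw [mulD_val y oneD q hq, hq]
    rfl

theorem mul_val (y z : LocDiv c) (q : M) (hq : y.1 = q * c) :
    (y * z).1 = q * z.1 := mulD_val y z q hq

theorem one_val : (1 : LocDiv c).1 = c := rfl

theorem pow_val (y : LocDiv c) (q : M) (hq : y.1 = q * c) (k : ℕ) :
    (y ^ k).1 = q ^ k * c := by
  induction k with
  | zero => rw [pow_zero, pow_zero, one_mul, one_val]
  | succ k ih => rw [pow_succ', mul_val y _ q hq, ih, pow_succ', mul_assoc]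

instance [Finite M] : Finite (LocDiv c) := inferInstanceAs (Finite {y : M // _})

/-- The map `m ↦ c m c`. -/
def psi (c : M) (m : M) : LocDiv c :=
  ⟨c * m * c, ⟨m * c, by rw [mul_assoc]⟩, ⟨c * m, rfl⟩⟩

theorem psi_prod (l : List M) :
    ((l.map (psi c)).prod).1 = c * (l.map (fun m => m * c)).prod := by
  induction l with
  | nil => simp [one_val]
  | cons m l ih =>
    rw [List.map_cons, List.prod_cons, mul_val (psi c m) _ (c * m) rfl, ih, List.map_cons,
      List.prod_cons]
    simp only [mul_assoc]

theorem card_lt [Finite M] (hap : ∀ x : M, ∃ k, x ^ (k + 1) = x ^ k) (hc : c ≠ 1) :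
    Nat.card (LocDiv c) < Nat.card M := by
  have hinj : Function.Injective (fun y : LocDiv c => y.1) := Subtype.val_injective
  refine lt_of_le_of_ne (Nat.card_le_card_of_injective _ hinj) ?_
  intro hcard
  haveI := Fintype.ofFinite M
  haveI := Fintype.ofFinite (LocDiv c)
  have hb : Function.Bijective (fun y : LocDiv c => y.1) := by
    rw [Fintype.bijective_iff_injective_and_card]
    refine ⟨hinj, ?_⟩
    rw [← Nat.card_eq_fintype_card, ← Nat.card_eq_fintype_card]
    exact hcard
  obtain ⟨y, hy⟩ := hb.2 1
  obtain ⟨p, hp⟩ := y.2.1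
  have hcp : c * p = 1 := by rw [← hp]; exact hy
  obtain ⟨k, hk⟩ := hap c
  have hkp : ∀ j : ℕ, c ^ j * p ^ j = 1 := by
    intro j
    induction j with
    | zero => simp
    | succ j ih =>
      rw [pow_succ, pow_succ' p, mul_assoc, ← mul_assoc c p, hcp, one_mul, ih]
  apply hc
  have h1 : c ^ (k + 1) * p ^ k = c := by
    rw [pow_succ', mul_assoc, hkp, mul_one]
  rw [← h1, hk, hkp]

theorem aperiodic (hap : ∀ x : M, ∃ k, x ^ (k + 1) = x ^ k) (y : LocDiv c) :
    ∃ k, y ^ (k + 1) = y ^ k := by
  obtain ⟨q, hq⟩ := y.2.2
  obtain ⟨k, hk⟩ := hap q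
  refine ⟨k, Subtype.ext ?_⟩
  rw [pow_val y q hq, pow_val y q hq, hk]

end LocDiv

/-! ### Block decomposition -/

section Blocks

variable {α : Type}

/-- Concatenation of blocks, each followed by the letter `c`. -/
def joinC (c : α) (l : List (List α)) : List α := (l.map (fun b => b ++ [c])).flatten

@[simp] theorem joinC_nil (c : α) : joinC c [] = [] := rfl

@[simp] theorem joinC_cons (c : α) (b : List α) (l : List (List α)) :
    joinC c (b :: l) = b ++ c :: joinC c l := by
  simp [joinC]

@[simp] theorem joinC_append (c : α) (l l' : List (List α)) :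
    joinC c (l ++ l') = joinC c l ++ joinC c l' := by
  simp [joinC]

theorem joinC_inj (c : α) (l l' : List (List α)) (h : ∀ b ∈ l, c ∉ b) (h' : ∀ b ∈ l', c ∉ b)
    (e : joinC c l = joinC c l') : l = l' := by
  induction l generalizing l' with
  | nil =>
    rcases l' with _ | ⟨b, l'⟩
    · rfl
    · simp at e
  | cons b l ih =>
    rcases l' with _ | ⟨b', l'⟩
    · simp at e
    · rw [joinC_cons, joinC_cons] at e
      have hb : c ∉ b := h b (by simp)
      have hb' : c ∉ b' := h' b' (by simp)
      have key : b = b' ∧ joinC c l = joinC c l' := by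
        clear ih h h'
        induction b generalizing b' with
        | nil =>
          rcases b' with _ | ⟨x, b'⟩
          · simpa using e
          · simp only [List.nil_append, List.cons_append, List.cons.injEq] at e
            simp [← e.1] at hb'
        | cons y b ih =>
          rcases b' with _ | ⟨x, b'⟩
          · simp only [List.nil_append, List.cons_append, List.cons.injEq] at e
            simp [e.1] at hb
          · simp only [List.cons_append, List.cons.injEq] at e
            obtain ⟨rfl, e⟩ := e
            simp only [List.mem_cons, not_or] at hb hb'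
            obtain ⟨h1, h2⟩ := ih b' e hb.2 hb'.2
            exact ⟨by rw [h1], h2⟩
      obtain ⟨rfl, h2⟩ := key
      rw [ih l' (fun b hb => h b (by simp [hb])) (fun b hb => h' b (by simp [hb])) h2]

theorem joinC_parse (c : α) (S : Set α) (w : List α) (hw : ∀ a ∈ w, a ∈ S ∨ a = c) :
    ∃ (l : List (List α)) (b : List α), w = joinC c l ++ b ∧ (∀ x ∈ l, ∀ a ∈ x, a ∈ S) ∧
      (∀ a ∈ b, a ∈ S) := by
  classical
  induction w using List.reverseRecOn with
  | nil => exact ⟨[], [], by simp⟩
  | append_singleton w a ih =>
    obtain ⟨l, b, rfl, h1, h2⟩ := ih (fun x hx => hw x (by simp [hx]))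
    rcases hw a (by simp) with ha | rfl
    · refine ⟨l, b ++ [a], by simp, h1, ?_⟩
      intro x hx
      rcases List.mem_append.mp hx with hx | hx
      · exact h2 x hx
      · simp only [List.mem_singleton] at hx
        rw [hx]
        exact ha
    · refine ⟨l ++ [b], [], by simp, ?_, by simp⟩
      intro x hx
      rcases List.mem_append.mp hx with hx | hx
      · exact h1 x hx
      · simp only [List.mem_singleton] at hx
        rw [hx]
        exact h2

end Blocks

theorem prod_joinC {α M : Type} [Monoid M] (φ : α → M) (c : α) (l : List (List α)) :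
    ((joinC c l).map φ).prod = ((l.map (fun b => (b.map φ).prod)).map (fun m => m * φ c)).prod := by
  induction l with
  | nil => simp
  | cons b l ih =>
    rw [joinC_cons, List.map_append, List.prod_append, List.map_cons, List.prod_cons, ih]
    simp [mul_assoc]

theorem rec_zero_of_star_free {β : Type} {P : GRE β} (h : P.sh ≤ 0) {α : Type} [Finite α]
    (c : α) (S : Set α) (hc : c ∉ S) (g : List α → β)
    (hg : ∀ m : β, Rec 0 (fun w : List α => (∀ a ∈ w, a ∈ S) ∧ g w = m)) :
    Rec 0 (fun w : List α => ∃ l : List (List α), (∀ x ∈ l, ∀ a ∈ x, a ∈ S) ∧ w = joinC c l ∧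
      l.map g ∈ P.lang) := by
  induction P with
  | zero =>
    refine (Rec.false 0).congr (fun w => ?_)
    simp only [GRE.lang, iff_false, not_exists, not_and]
    intro l _ _ h
    exact Language.notMem_zero _ h
  | one =>
    refine (Rec.nil 0).congr (fun w => ?_)
    simp only [GRE.lang, Language.mem_one, List.map_eq_nil_iff]
    constructor
    · rintro ⟨l, _, rfl, rfl⟩
      rfl
    · rintro rfl
      exact ⟨[], by simp⟩
  | letter m =>
    refine ((hg m).cat (Rec.single 0 c)).congr (fun w => ?_)
    constructor
    · rintro ⟨l, h1, rfl, h2⟩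
      have h3 : l.map g = [m] := Set.mem_singleton_iff.mp h2
      rcases l with _ | ⟨b, l⟩
      · simp at h3
      · simp only [List.map_cons, List.cons.injEq, List.map_eq_nil_iff] at h3
        obtain ⟨h3, rfl⟩ := h3
        exact ⟨b, [c], by simp, ⟨h1 b (by simp), h3⟩, rfl⟩
    · rintro ⟨b, v, rfl, ⟨h1, h2⟩, rfl⟩
      refine ⟨[b], by simpa using h1, by simp, ?_⟩
      exact Set.mem_singleton_iff.mpr (by simp [h2])
  | plus P Q ihP ihQ =>
    simp only [GRE.sh] at h
    refine ((ihP (by omega)).or (ihQ (by omega))).congr (fun w => ?_)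
    simp only [GRE.lang, Language.mem_add]
    constructor
    · rintro ⟨l, h1, h2, h3 | h3⟩
      · exact Or.inl ⟨l, h1, h2, h3⟩
      · exact Or.inr ⟨l, h1, h2, h3⟩
    · rintro (⟨l, h1, h2, h3⟩ | ⟨l, h1, h2, h3⟩)
      · exact ⟨l, h1, h2, Or.inl h3⟩
      · exact ⟨l, h1, h2, Or.inr h3⟩
  | cat P Q ihP ihQ =>
    simp only [GRE.sh] at h
    refine ((ihP (by omega)).cat (ihQ (by omega))).congr (fun w => ?_)
    simp only [GRE.lang, Language.mem_mul]
    constructor
    · rintro ⟨l, h1, rfl, u, hu, v, hv, huv⟩
      obtain ⟨l1, l2, rfl, h2, h3⟩ := List.map_eq_append_iff.mp huv.symm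
      refine ⟨joinC c l1, joinC c l2, by simp, ⟨l1, ?_, rfl, by rw [h2]; exact hu⟩,
        ⟨l2, ?_, rfl, by rw [h3]; exact hv⟩⟩
      · exact fun x hx => h1 x (by simp [hx])
      · exact fun x hx => h1 x (by simp [hx])
    · rintro ⟨u, v, rfl, ⟨l1, h1, rfl, h2⟩, ⟨l2, h3, rfl, h4⟩⟩
      refine ⟨l1 ++ l2, ?_, by simp, l1.map g, h2, l2.map g, h4, by simp⟩
      intro x hx
      rcases List.mem_append.mp hx with hx | hx
      · exact h1 x hx
      · exact h3 x hx
  | neg P ih =>
    have hdom : Rec 0 (fun w : List α => ∃ l : List (List α), (∀ x ∈ l, ∀ a ∈ x, a ∈ S) ∧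
        w = joinC c l) := by
      refine ((Rec.subalphabet 0 (S ∪ {c})).and
        ((Rec.nil 0).or ((Rec.true 0).cat (Rec.single 0 c)))).congr (fun w => ?_)
      constructor
      · rintro ⟨l, h1, rfl⟩
        induction l using List.reverseRecOn with
        | nil => simp
        | append_singleton l b ih =>
          refine ⟨?_, Or.inr ⟨joinC c l ++ b, [c], by simp, trivial, rfl⟩⟩
          have h2 := (ih (fun x hx => h1 x (by simp [hx]))).1
          intro a ha
          simp only [joinC_append, joinC_cons, joinC_nil, List.mem_append, List.mem_cons,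
            List.not_mem_nil, or_false] at ha
          rcases ha with ha | ha | ha
          · exact h2 a ha
          · exact Or.inl (h1 b (by simp) a ha)
          · exact Or.inr ha
      · rintro ⟨h1, rfl | ⟨u, v, rfl, -, rfl⟩⟩
        · exact ⟨[], by simp⟩
        · obtain ⟨l, b, rfl, h2, h3⟩ := joinC_parse c S u (fun a ha => by
            have := h1 a (by simp [ha])
            simpa [or_comm] using this)
          refine ⟨l ++ [b], ?_, by simp⟩
          intro x hx
          rcases List.mem_append.mp hx with hx | hx
          · exact h2 x hx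
          · simp only [List.mem_singleton] at hx
            rw [hx]
            exact h3
    refine (hdom.and (ih h).not).congr (fun w => ?_)
    constructor
    · rintro ⟨l, h1, rfl, h2⟩
      refine ⟨⟨l, h1, rfl⟩, ?_⟩
      rintro ⟨l', h1', h2', h3'⟩
      have : l = l' := joinC_inj c l l' (fun b hb hcb => hc (h1 b hb c hcb))
        (fun b hb hcb => hc (h1' b hb c hcb)) h2'
      subst this
      exact h2 h3'
    · rintro ⟨⟨l, h1, rfl⟩, h2⟩
      refine ⟨l, h1, rfl, ?_⟩
      intro h3
      exact h2 ⟨l, h1, rfl, h3⟩
  | star P ih =>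
    simp only [GRE.sh] at h
    omega

/-- **Schuetzenberger's theorem**: a finite aperiodic monoid recognizes only star-free
languages. -/
theorem rec_zero_of_aperiodic (n : ℕ) : ∀ (M : Type) [Monoid M] [Finite M], Nat.card M ≤ n →
    (∀ x : M, ∃ k, x ^ (k + 1) = x ^ k) → ∀ (α : Type) [Finite α] (φ : α → M) (m : M),
      Rec 0 (fun w : List α => (w.map φ).prod = m) := by
  classical
  induction n with
  | zero =>
    intro M _ _ hM
    haveI : Nonempty M := ⟨1⟩
    have := Nat.card_pos (α := M)
    omega
  | succ n ihn =>
    intro M _ _ hM hap α _ φ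
    haveI := Fintype.ofFinite α
    have claim : ∀ S : Finset α, ∀ m : M,
        Rec 0 (fun w : List α => (∀ a ∈ w, a ∈ S) ∧ (w.map φ).prod = m) := by
      intro S
      induction S using Finset.strongInduction with
      | H S ihS =>
        intro m
        by_cases hall : ∀ a ∈ S, φ a = 1
        · refine ((Rec.subalphabet 0 (S : Set α)).and (Rec.const 0 (m = 1))).congr (fun w => ?_)
          have h1 : (∀ a ∈ w, a ∈ S) → (w.map φ).prod = 1 := by
            intro hw
            apply List.prod_eq_one
            intro x hx
            obtain ⟨a, ha, rfl⟩ := List.mem_map.mp hx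
            exact hall a (hw a ha)
          constructor
          · rintro ⟨h2, h3⟩
            exact ⟨h2, by rw [← h3, h1 h2]⟩
          · rintro ⟨h2, h3⟩
            exact ⟨h2, by rw [h1 h2, h3]⟩
        · push Not at hall
          obtain ⟨c, hcS, hc1⟩ := hall
          have hB := ihS (S.erase c) (Finset.erase_ssubset hcS)
          have hX : ∀ β : LocDiv (φ c), Rec 0 (fun w : List α => ∃ l : List (List α),
              (∀ x ∈ l, ∀ a ∈ x, a ∈ (S.erase c)) ∧ w = joinC c l ∧
              ((l.map (fun b => (b.map φ).prod)).map (LocDiv.psi (φ c))).prod = β) := by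
            intro β
            have hlt := LocDiv.card_lt (c := φ c) hap hc1
            obtain ⟨P, hP1, hP2⟩ := ihn (LocDiv (φ c)) (by omega) (LocDiv.aperiodic hap) M
              (LocDiv.psi (φ c)) β
            refine (rec_zero_of_star_free hP2 c ((S.erase c : Finset α) : Set α) (by simp)
              (fun b => (b.map φ).prod) (fun m => ?_)).congr (fun w => ?_)
            · exact (hB m).congr (fun w => by simp only [Finset.mem_coe])
            · rw [hP1]
              exact Iff.rfl
          have hcomp : ∀ t : M × LocDiv (φ c) × M, Rec 0 (fun w : List α =>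
              (t.1 * t.2.1.1 * t.2.2 = m) ∧ ∃ u v, w = u ++ v ∧
                ((∀ a ∈ u, a ∈ (S.erase c)) ∧ (u.map φ).prod = t.1) ∧
                ∃ u' v', v = u' ++ v' ∧ u' = [c] ∧ ∃ u'' v'', v' = u'' ++ v'' ∧
                  (∃ l : List (List α),
                    (∀ x ∈ l, ∀ a ∈ x, a ∈ (S.erase c)) ∧ u'' = joinC c l ∧
                    ((l.map (fun b => (b.map φ).prod)).map (LocDiv.psi (φ c))).prod = t.2.1) ∧
                  ((∀ a ∈ v'', a ∈ (S.erase c)) ∧ (v''.map φ).prod = t.2.2)) := fun t =>
            (Rec.const 0 _).and ((hB t.1).cat ((Rec.single 0 c).cat ((hX t.2.1).cat (hB t.2.2))))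
          refine ((hB m).or (Rec.exists_fin hcomp)).congr (fun w => ?_)
          have hval : ∀ l : List (List α), φ c * ((joinC c l).map φ).prod =
              ((l.map (fun b => (b.map φ).prod)).map (LocDiv.psi (φ c))).prod.1 := by
            intro l
            rw [LocDiv.psi_prod, prod_joinC]
          constructor
          · rintro ⟨h1, h2⟩
            obtain ⟨l, b, rfl, h3, h4⟩ := joinC_parse c ((S.erase c : Finset α) : Set α) w
              (fun a ha => by
                have := h1 a ha
                by_cases hac : a = c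
                · exact Or.inr hac
                · exact Or.inl (by simp [hac, this]))
            rcases l with _ | ⟨b0, l⟩
            · left
              simp only [joinC_nil, List.nil_append] at h2 ⊢
              exact ⟨fun a ha => Finset.mem_coe.mp (h4 a ha), h2⟩
            · right
              refine ⟨((b0.map φ).prod,
                ((l.map (fun b => (b.map φ).prod)).map (LocDiv.psi (φ c))).prod,
                (b.map φ).prod), ?_, b0, c :: (joinC c l ++ b), by simp,
                ⟨fun a ha => Finset.mem_coe.mp (h3 b0 (by simp) a ha), rfl⟩,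
                [c], joinC c l ++ b, rfl, rfl, joinC c l, b, rfl,
                ⟨l, fun x hx a ha => Finset.mem_coe.mp (h3 x (by simp [hx]) a ha), rfl, rfl⟩,
                ⟨fun a ha => Finset.mem_coe.mp (h4 a ha), rfl⟩⟩
              show (b0.map φ).prod * _ * _ = m
              rw [← hval, ← h2]
              simp [mul_assoc]
          · rintro (⟨h1, h2⟩ | ⟨⟨m1, β, m2⟩, h0, u, v, rfl, ⟨hu1, hu2⟩, u', v', rfl, rfl,
              u'', v'', rfl, ⟨l, hl1, rfl, hl2⟩, hv1, hv2⟩)
            · exact ⟨fun a ha => Finset.mem_of_mem_erase (h1 a ha), h2⟩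
            · have hjoin : ∀ l : List (List α), (∀ x ∈ l, ∀ a ∈ x, a ∈ (S.erase c)) →
                  ∀ a ∈ joinC c l, a ∈ S := by
                intro l hl
                induction l with
                | nil => simp
                | cons b l ih =>
                  intro a ha
                  simp only [joinC_cons, List.mem_append, List.mem_cons] at ha
                  rcases ha with ha | ha | ha
                  · exact Finset.mem_of_mem_erase (hl b (by simp) a ha)
                  · rw [ha]
                    exact hcS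
                  · exact ih (fun x hx => hl x (by simp [hx])) a ha
              constructor
              · intro a ha
                simp only [List.mem_append, List.mem_singleton] at ha
                rcases ha with ha | ha | ha | ha
                · exact Finset.mem_of_mem_erase (hu1 a ha)
                · rw [ha]
                  exact hcS
                · exact hjoin l hl1 a ha
                · exact Finset.mem_of_mem_erase (hv1 a ha)
              · simp only at h0 hu2 hl2 hv2
                rw [← h0, ← hl2, ← hval, ← hu2, ← hv2]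
                simp [mul_assoc]
    intro m
    exact (claim Finset.univ m).congr (fun w => by simp)

/-- Version with the aperiodicity hypothesis on the recognizing morphism only. -/
theorem rec_zero_of_aperiodic' {M : Type} [Monoid M] [Finite M] {α : Type} [Finite α]
    (φ : α → M) (hap : ∀ w : List α, ∃ k, (w.map φ).prod ^ (k + 1) = (w.map φ).prod ^ k) (m : M) :
    Rec 0 (fun w : List α => (w.map φ).prod = m) := by
  classical
  let N : Submonoid M := Submonoid.closure (Set.range φ)
  have hN : ∀ x : N, ∃ w : List α, (w.map φ).prod = x.1 := by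
    rintro ⟨x, hx⟩
    induction hx using Submonoid.closure_induction with
    | mem x hx =>
      obtain ⟨a, rfl⟩ := hx
      exact ⟨[a], by simp⟩
    | one => exact ⟨[], by simp⟩
    | mul x y _ _ hx hy =>
      obtain ⟨u, hu⟩ := hx
      obtain ⟨v, hv⟩ := hy
      exact ⟨u ++ v, by simp [hu, hv]⟩
  let φ' : α → N := fun a => ⟨φ a, Submonoid.subset_closure ⟨a, rfl⟩⟩
  have hφ' : ∀ w : List α, ((w.map φ').prod : M) = (w.map φ).prod := by
    intro w
    induction w with
    | nil => simp
    | cons a w ih => simp [ih, φ']
  by_cases hm : m ∈ N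
  · have := rec_zero_of_aperiodic (Nat.card N) N le_rfl (by
      intro x
      obtain ⟨w, hw⟩ := hN x
      obtain ⟨k, hk⟩ := hap w
      refine ⟨k, Subtype.ext ?_⟩
      simpa [← hw] using hk) α φ' ⟨m, hm⟩
    refine this.congr (fun w => ?_)
    rw [← hφ' w, Subtype.ext_iff]
  · refine (Rec.false 0).congr (fun w => ?_)
    simp only [iff_false]
    intro h
    apply hm
    rw [← h, ← hφ' w]
    exact Subtype.coe_prop _

end Vale.Agent.P329
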